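import Mathlib

/-!
# Polynomials in three variables: graded pieces and their dimensions
-/

namespace Vale.Agent.P200

open MvPolynomial Module

/-- The polynomial ring in three variables. -/
abbrev Pol (K : Type*) [Field K] := MvPolynomial (Fin 3) K

/-- The graded piece of degree `d`. -/
abbrev Sd (K : Type*) [Field K] (d : ℕ) : Submodule K (Pol K) :=
  homogeneousSubmodule (Fin 3) K d

variable {K : Type*} [Field K]

instance instFiniteSd (d : ℕ) : FiniteDimensional K (Sd K d) :=
  Module.Finite.iff_fg.mpr (homogeneousSubmodule_fg (Fin 3) K d)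

theorem finrank_Sd (d : ℕ) : finrank K (Sd K d) = (d + 2).choose 2 := by
  classical
  rw [Sd, homogeneousSubmodule_eq_finsupp_supported]
  let s : Set (Fin 3 →₀ ℕ) := {e | e.degree = d}
  have hs : s = ((Finset.finsuppAntidiag (Finset.univ : Finset (Fin 3)) d : Finset (Fin 3 →₀ ℕ)) :
      Set (Fin 3 →₀ ℕ)) := by
    ext e
    simp only [s, Set.mem_setOf_eq, Finset.mem_coe, Finset.mem_finsuppAntidiag]
    simp [Finsupp.degree_eq_sum]
  have h1 := Module.finrank_eq_nat_card_basis (basisRestrictSupport K s)
  have h2 : Nat.card s = (d + 2).choose 2 := by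
    have h3 : Nat.card s = (Finset.finsuppAntidiag (Finset.univ : Finset (Fin 3)) d).card := by
      rw [Nat.card_coe_set_eq, hs, Set.ncard_coe_finset]
    rw [h3, Finset.card_finsuppAntidiag_nat_eq_choose]
    simp only [Finset.card_univ, Fintype.card_fin]
    have : 3 + d - 1 = d + 2 := by omega
    rw [this]
    exact Nat.choose_symm_of_eq_add (by omega)
  rw [← h2, ← h1]
  rfl

/-- Multiplying by a homogeneous element shifts homogeneous components. -/
theorem hc_mul {f : Pol K} {e : ℕ} (hf : f.IsHomogeneous e) (w : Pol K) (n : ℕ) :
    homogeneousComponent (n + e) (w * f) = homogeneousComponent n w * f := by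
  classical
  conv_lhs => rw [← sum_homogeneousComponent w, Finset.sum_mul, map_sum]
  have h1 : ∀ x, homogeneousComponent (n + e) (homogeneousComponent x w * f)
      = if x = n then homogeneousComponent x w * f else 0 := by
    intro x
    rw [homogeneousComponent_of_mem ((homogeneousComponent_isHomogeneous x w).mul hf)]
    by_cases hx : x = n
    · simp [hx]
    · rw [if_neg (by omega), if_neg hx]
  simp only [h1]
  rw [Finset.sum_ite_eq']
  split_ifs with hn
  · rfl
  · rw [homogeneousComponent_eq_zero, zero_mul]
    simp only [Finset.mem_range] at hn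
    omega

/-- Low components of a multiple of a homogeneous element vanish. -/
theorem hc_mul_lt {f : Pol K} {e : ℕ} (hf : f.IsHomogeneous e) (w : Pol K) {n : ℕ} (hn : n < e) :
    homogeneousComponent n (w * f) = 0 := by
  classical
  conv_lhs => rw [← sum_homogeneousComponent w, Finset.sum_mul, map_sum]
  refine Finset.sum_eq_zero fun x _ => ?_
  rw [homogeneousComponent_of_mem ((homogeneousComponent_isHomogeneous x w).mul hf),
    if_neg (by omega)]

/-- A homogeneous combination of homogeneous elements may be taken with homogeneous coefficients. -/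
theorem hc_comb {f : Fin 3 → Pol K} {e n : ℕ} (hf : ∀ i, (f i).IsHomogeneous e)
    {c : Fin 3 → Pol K} (hp : (∑ i, c i * f i).IsHomogeneous (n + e)) :
    ∑ i, c i * f i = ∑ i, homogeneousComponent n (c i) * f i := by
  have h := homogeneousComponent_eq_self hp
  rw [← h, map_sum]
  exact Finset.sum_congr rfl fun i _ => hc_mul (hf i) _ _

end Vale.Agent.P200
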