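import Vale.Agent.P200.Lin

/-!
# Dimension counts: forms in two variables' worth of multiples
-/

namespace Vale.Agent.P200

open MvPolynomial Module

variable {K : Type*} [Field K] {f : Fin 3 → Pol K}

/-- Multiplication by `a`, as a linear map. -/
noncomputable abbrev mulBy (a : Pol K) : Pol K →ₗ[K] Pol K := LinearMap.mulLeft K a

theorem finrank_map_mulBy {a : Pol K} (ha : a ≠ 0) (V : Submodule K (Pol K)) :
    finrank K (V.map (mulBy a)) = finrank K V :=
  (Submodule.equivMapOfInjective (mulBy a) (mul_right_injective₀ ha) V).finrank_eq.symm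

theorem mem_map_mulBy {a p : Pol K} {V : Submodule K (Pol K)} :
    p ∈ V.map (mulBy a) ↔ ∃ v ∈ V, a * v = p := by
  simp [Submodule.mem_map]

theorem mul_mem_map {a v : Pol K} {V : Submodule K (Pol K)} (hv : v ∈ V) :
    a * v ∈ V.map (mulBy a) := mem_map_mulBy.mpr ⟨v, hv, rfl⟩

theorem map_le_Sd {a : Pol K} {α n m : ℕ} (ha : a.IsHomogeneous α) (hm : n + α = m)
    {V : Submodule K (Pol K)} (hV : V ≤ Sd K n) : V.map (mulBy a) ≤ Sd K m := by
  intro p hp
  obtain ⟨v, hv, rfl⟩ := mem_map_mulBy.mp hp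
  have h1 : v.IsHomogeneous n := hV hv
  have h2 : (a * v).IsHomogeneous (α + n) := ha.mul h1
  rw [show α + n = m by omega] at h2
  exact h2

theorem finDim {V : Submodule K (Pol K)} {n : ℕ} (h : V ≤ Sd K n) : FiniteDimensional K V :=
  Submodule.finiteDimensional_of_le h

theorem finrank_le_of_le {V W : Submodule K (Pol K)} (h : V ≤ W) [FiniteDimensional K W] :
    finrank K V ≤ finrank K W :=
  LinearMap.finrank_le_finrank_of_injective (Submodule.inclusion_injective h)

theorem finrank_sup_le {V W : Submodule K (Pol K)} [FiniteDimensional K V] [FiniteDimensional K W] :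
    finrank K ↥(V ⊔ W) ≤ finrank K V + finrank K W := by
  have := Submodule.finrank_sup_add_finrank_inf_eq V W
  omega

/-- Upper bound for the dimension of a degree piece of a two-generated ideal. -/
theorem pair_upper {a b : Pol K} {α β : ℕ} (ha : a.IsHomogeneous α) (ha0 : a ≠ 0)
    (hb : b.IsHomogeneous β) (hb0 : b ≠ 0) (k : ℕ) :
    finrank K ↥((Sd K (k + β)).map (mulBy a) ⊔ (Sd K (k + α)).map (mulBy b))
      + finrank K (Sd K k) ≤ finrank K (Sd K (k + β)) + finrank K (Sd K (k + α)) := by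
  have h1 := Submodule.finrank_sup_add_finrank_inf_eq
    ((Sd K (k + β)).map (mulBy a)) ((Sd K (k + α)).map (mulBy b))
  rw [finrank_map_mulBy ha0, finrank_map_mulBy hb0] at h1
  have h2 : (Sd K k).map (mulBy (a * b)) ≤
      (Sd K (k + β)).map (mulBy a) ⊓ (Sd K (k + α)).map (mulBy b) := by
    intro p hp
    obtain ⟨w, hw, rfl⟩ := mem_map_mulBy.mp hp
    have hw' : w.IsHomogeneous k := hw
    refine ⟨mem_map_mulBy.mpr ⟨w * b, hw'.mul hb, by ring⟩,
      mem_map_mulBy.mpr ⟨w * a, hw'.mul ha, by ring⟩⟩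
  have h3 := finrank_le_of_le h2
  rw [finrank_map_mulBy (mul_ne_zero ha0 hb0)] at h3
  omega

/-- The three cubics do not lie in an ideal with two generators of small degree. -/
theorem NZ (hf : IsRegCubic f) {a b : Pol K} {α β k : ℕ} (ha : a.IsHomogeneous α) (ha0 : a ≠ 0)
    (hb : b.IsHomogeneous β) (hb0 : b ≠ 0) (hk : k + α + β = 7)
    (hnum : (k + β + 2).choose 2 + (k + α + 2).choose 2 < 36 + (k + 2).choose 2)
    (h : ∀ i, f i ∈ Ideal.span {a, b}) : False := by
  have h1 := pair_upper ha ha0 hb hb0 k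
  rw [finrank_Sd, finrank_Sd, finrank_Sd] at h1
  have h2 : Sd K 7 ≤ (Sd K (k + β)).map (mulBy a) ⊔ (Sd K (k + α)).map (mulBy b) := by
    intro p hp
    have hp' : p.IsHomogeneous 7 := hp
    have h3 : p ∈ Ideal.span {a, b} := by
      have h4 : Fid f ≤ Ideal.span {a, b} := by
        rw [Fid, Ideal.span_le]
        rintro _ ⟨i, rfl⟩
        exact h i
      exact h4 (top_mem hf hp')
    obtain ⟨u, v, huv⟩ := Ideal.mem_span_pair.mp h3
    have h5 := homogeneousComponent_eq_self hp'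
    rw [← huv, map_add, show 7 = k + β + α by omega, hc_mul ha,
      show k + β + α = k + α + β by omega, hc_mul hb] at h5
    rw [← huv, ← h5]
    refine Submodule.add_mem_sup ?_ ?_
    · refine mem_map_mulBy.mpr ⟨_, homogeneousComponent_isHomogeneous (k + β) u, by ring⟩
    · refine mem_map_mulBy.mpr ⟨_, homogeneousComponent_isHomogeneous (k + α) v, by ring⟩
  have h3 := finrank_le_of_le h2
  rw [finrank_Sd] at h3
  norm_num [Nat.choose] at h3
  omega

/-- One generator of degree one or two: two dimensions are gained. -/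
theorem L1 (hf : IsRegCubic f) {a : Pol K} {α : ℕ} (ha : a.IsHomogeneous α) (ha0 : a ≠ 0)
    (hα : α = 1 ∨ α = 2) {A : Submodule K (Pol K)} (hA : A ≤ Sd K 3)
    (hAa : ∀ p ∈ A, a ∣ p) : finrank K A + 2 ≤ finrank K ↥(A ⊔ Fd f 3) := by
  haveI := finDim hA
  have hnz : ∀ g : Pol K, g.IsHomogeneous 3 → g ≠ 0 → (∀ i, f i ∈ Ideal.span {a, g}) → False := by
    intro g hg hg0 h
    rcases hα with rfl | rfl
    · exact NZ (k := 3) hf ha ha0 hg hg0 (by norm_num) (by norm_num [Nat.choose]) h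
    · exact NZ (k := 2) hf ha ha0 hg hg0 (by norm_num) (by norm_num [Nat.choose]) h
  have hAI : ∀ g : Pol K, ∀ p ∈ A, p ∈ Ideal.span {a, g} := by
    intro g p hp
    obtain ⟨e, rfl⟩ := hAa p hp
    exact Ideal.mul_mem_right _ _ (Ideal.subset_span (by simp))
  by_contra hcon
  by_cases hall : ∀ i, f i ∈ A
  · exact hnz (f 0) (hf.hom 0) hf.f0_ne fun i => hAI _ _ (hall i)
  · push_neg at hall
    obtain ⟨i₀, hi₀⟩ := hall
    have hg0 : f i₀ ≠ 0 := by
      rintro h
      exact hi₀ (h ▸ A.zero_mem)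
    have h1 : A ⊔ Submodule.span K {f i₀} ≤ A ⊔ Fd f 3 := by
      refine sup_le_sup_left ?_ _
      rw [Submodule.span_singleton_le_iff_mem, mem_Fd]
      exact ⟨f_mem_Fid i₀, hf.hom i₀⟩
    have h2 : finrank K A + 1 ≤ finrank K ↥(A ⊔ Submodule.span K {f i₀}) := by
      have h3 : A < A ⊔ Submodule.span K {f i₀} := by
        refine lt_of_le_of_ne le_sup_left ?_
        intro h
        apply hi₀
        rw [h]
        exact Submodule.mem_sup_right (Submodule.mem_span_singleton_self _)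
      exact Submodule.finrank_lt_finrank_of_lt h3
    have h4 : A ⊔ Submodule.span K {f i₀} = A ⊔ Fd f 3 :=
      Submodule.eq_of_le_of_finrank_le h1 (by omega)
    refine hnz (f i₀) (hf.hom i₀) hg0 fun i => ?_
    have h5 : f i ∈ A ⊔ Submodule.span K {f i₀} := by
      rw [h4]
      refine Submodule.mem_sup_right ?_
      rw [mem_Fd]
      exact ⟨f_mem_Fid i, hf.hom i⟩
    obtain ⟨p, hp, r, hr, hpr⟩ := Submodule.mem_sup.mp h5
    rw [← hpr]
    refine Ideal.add_mem _ (hAI _ _ hp) ?_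
    obtain ⟨c, rfl⟩ := Submodule.mem_span_singleton.mp hr
    rw [← C_mul' ]
    exact Ideal.mul_mem_left _ _ (Ideal.subset_span (by simp))

/-- Two generators: one dimension is gained. -/
theorem L2 (hf : IsRegCubic f) {a b : Pol K} {α β k : ℕ} (ha : a.IsHomogeneous α) (ha0 : a ≠ 0)
    (hb : b.IsHomogeneous β) (hb0 : b ≠ 0) (hk : k + α + β = 7)
    (hnum : (k + β + 2).choose 2 + (k + α + 2).choose 2 < 36 + (k + 2).choose 2)
    {A : Submodule K (Pol K)} (hA : A ≤ Sd K 3)
    (hAa : ∀ p ∈ A, p ∈ Ideal.span {a, b}) : finrank K A + 1 ≤ finrank K ↥(A ⊔ Fd f 3) := by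
  haveI := finDim hA
  by_contra hcon
  have h1 : A = A ⊔ Fd f 3 := Submodule.eq_of_le_of_finrank_le le_sup_left (by omega)
  refine NZ hf ha ha0 hb hb0 hk hnum fun i => hAa _ ?_
  rw [h1]
  refine Submodule.mem_sup_right ?_
  rw [mem_Fd]
  exact ⟨f_mem_Fid i, hf.hom i⟩

/-- Lower bound for two linear forms without common factor. -/
theorem pair_lower {l₁ l₂ : Pol K} (h₁ : Lin l₁) (h₂ : Lin l₂) (hn : ¬ l₁ ∣ l₂) (n : ℕ) :
    2 * finrank K (Sd K (n + 1)) ≤ finrank K ↥((Sd K (n + 1)).map (mulBy l₁)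
      ⊔ (Sd K (n + 1)).map (mulBy l₂)) + finrank K (Sd K n) := by
  have h1 := Submodule.finrank_sup_add_finrank_inf_eq
    ((Sd K (n + 1)).map (mulBy l₁)) ((Sd K (n + 1)).map (mulBy l₂))
  rw [finrank_map_mulBy h₁.ne, finrank_map_mulBy h₂.ne] at h1
  have h2 : (Sd K (n + 1)).map (mulBy l₁) ⊓ (Sd K (n + 1)).map (mulBy l₂)
      ≤ (Sd K n).map (mulBy (l₁ * l₂)) := by
    rintro p ⟨hp1, hp2⟩
    obtain ⟨u, hu, rfl⟩ := mem_map_mulBy.mp hp1
    obtain ⟨v, hv, hv'⟩ := mem_map_mulBy.mp hp2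
    have h3 : l₁ ∣ v := by
      rcases h₁.prime.dvd_or_dvd (⟨u, hv'⟩ : l₁ ∣ l₂ * v) with h | h
      · exact (hn h).elim
      · exact h
    obtain ⟨w, rfl⟩ := h3
    refine mem_map_mulBy.mpr ⟨w, ?_, by linear_combination hv'⟩
    have hv2 : (l₁ * w).IsHomogeneous (n + 1) := hv
    exact quot_hom h₁.hom h₁.ne (by rwa [mul_comm])
  have h3 := finrank_le_of_le h2
  rw [finrank_map_mulBy (mul_ne_zero h₁.ne h₂.ne)] at h3
  omega

end Vale.Agent.P200
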