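import Vale.Agent.P200.Koszul

/-!
# The lex-plus-powers space for the degree sequence `(3,3,3)` in three variables

Monomials of `K[x₀,x₁,x₂]` are indexed by exponent vectors `e : Fin 3 →₀ ℕ`, and `x₀ > x₁ > x₂`.
-/

namespace Vale.Agent.P200

open MvPolynomial Module

variable {K : Type*} [Field K]

/-- The monomial with exponent vector `e` lies in `P = (x₀³, x₁³, x₂³)`. -/
def InP (e : Fin 3 →₀ ℕ) : Prop := ∃ i, 3 ≤ e i

/-- The monomial `e'` is lexicographically greater than the monomial `e`. -/
def LexGt (e' e : Fin 3 →₀ ℕ) : Prop :=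
  e 0 < e' 0 ∨ (e' 0 = e 0 ∧ e 1 < e' 1) ∨ (e' 0 = e 0 ∧ e' 1 = e 1 ∧ e 2 < e' 2)

/-- The number of monomials of the same degree as `e`, outside `P`, lexicographically greater
than `e`. -/
noncomputable def lexRank (e : Fin 3 →₀ ℕ) : ℕ :=
  Set.ncard {e' : Fin 3 →₀ ℕ | e'.degree = e.degree ∧ ¬ InP e' ∧ LexGt e' e}

/-- The degree `d` part `I_d` of an ideal: its elements that are homogeneous of degree `d`. -/
noncomputable def degPart (I : Ideal (Pol K)) (d : ℕ) : Submodule K (Pol K) :=
  (I.restrictScalars K) ⊓ Sd K d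

/-- The number `q_d = dim I_d - dim P_d`. -/
noncomputable def qDim (I : Ideal (Pol K)) (d : ℕ) : ℕ :=
  finrank K (degPart I d) - Set.ncard {e : Fin 3 →₀ ℕ | e.degree = d ∧ InP e}

/-- The space `J_d`: the span of the monomials of degree `d` in `P` and of the `q_d`
lexicographically greatest monomials of degree `d` outside `P`. -/
noncomputable def lexPlusPowers (I : Ideal (Pol K)) (d : ℕ) : Submodule K (Pol K) :=
  Submodule.span K {p | ∃ e : Fin 3 →₀ ℕ, e.degree = d ∧ (InP e ∨ lexRank e < qDim I d) ∧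
    p = monomial e 1}

end Vale.Agent.P200
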