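import Vale.Agent.P200.Triple

/-!
# Growth from degree two to degree three modulo the three cubics
-/

namespace Vale.Agent.P200

open MvPolynomial Module

variable {K : Type*} [Field K] {f : Fin 3 → Pol K}

theorem lin_of_factor {l a q : Pol K} (hl : Lin l) (hq : q.IsHomogeneous 2) (h0 : q ≠ 0)
    (h : q = l * a) : Lin a := by
  have ha0 : a ≠ 0 := by
    rintro rfl
    exact h0 (by simp [h])
  refine ⟨quot_hom hl.hom hl.ne (β := 1) (α := 1) ?_, ha0⟩
  rw [mul_comm, ← h]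
  exact hq

/-- In a space of at least three quadrics without common linear factor, there are two
independent elements without common linear factor. -/
theorem exists_pair {Y : Submodule K (Pol K)} (hY : Y ≤ Sd K 2) (hfr : 2 ≤ finrank K Y)
    (hnc : ∀ l : Pol K, Lin l → ∃ q ∈ Y, ¬ l ∣ q) :
    ∃ q₁ ∈ Y, ∃ q₂ ∈ Y, q₁ ≠ 0 ∧ (∀ r : K, q₂ ≠ C r * q₁) ∧ NoCommon q₁ q₂ := by
  haveI := finDim hY
  by_contra hh
  have hh' : ∀ q₁ ∈ Y, ∀ q₂ ∈ Y, q₁ ≠ 0 → (∀ r : K, q₂ ≠ C r * q₁) →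
      ∃ l : Pol K, Lin l ∧ l ∣ q₁ ∧ l ∣ q₂ := by
    intro q₁ h₁ q₂ h₂ h0 hnp
    by_contra hcon
    refine hh ⟨q₁, h₁, q₂, h₂, h0, hnp, fun l hl hd₁ hd₂ => hcon ⟨l, hl, hd₁, hd₂⟩⟩
  obtain ⟨q₁, h₁, h₁0⟩ := exists_ne_zero (V := Y) (by omega)
  obtain ⟨q₂, h₂, h₂s⟩ := exists_not_mem (U := Submodule.span K {q₁}) (V := Y)
    (by have := finrank_span_le_card (R := K) ({q₁} : Set (Pol K)); simp at this; omega)
  have hnp₁₂ : ∀ r : K, q₂ ≠ C r * q₁ := fun r hr => h₂s (mem_span_of_eq_C hr)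
  have h₂0 : q₂ ≠ 0 := by
    rintro rfl
    exact h₂s (Submodule.zero_mem _)
  obtain ⟨l, hl, ⟨a₁, ha₁⟩, ⟨a₂, ha₂⟩⟩ := hh' q₁ h₁ q₂ h₂ h₁0 hnp₁₂
  have La₁ : Lin a₁ := lin_of_factor hl (hY h₁) h₁0 ha₁
  have La₂ : Lin a₂ := lin_of_factor hl (hY h₂) h₂0 ha₂
  obtain ⟨q₃, h₃, h₃d⟩ := hnc l hl
  have hdvd : ∀ {q : Pol K}, l ∣ q → ∀ r : K, q₃ ≠ C r * q := by
    intro q hd r hr
    apply h₃d
    rw [hr]
    exact Dvd.dvd.mul_left hd _
  -- each of `a₁`, `a₂` divides `q₃`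
  have h31 : a₁ ∣ q₃ := by
    obtain ⟨m, hm, hm1, hm3⟩ := hh' q₁ h₁ q₃ h₃ h₁0 (hdvd ⟨a₁, ha₁⟩)
    rw [ha₁] at hm1
    rcases hm.prime.dvd_or_dvd hm1 with h | h
    · exact (h₃d ((Lin.dvd_symm hm hl h).trans hm3)).elim
    · exact (Lin.dvd_symm hm La₁ h).trans hm3
  have h32 : a₂ ∣ q₃ := by
    obtain ⟨m, hm, hm1, hm3⟩ := hh' q₂ h₂ q₃ h₃ h₂0 (hdvd ⟨a₂, ha₂⟩)
    rw [ha₂] at hm1
    rcases hm.prime.dvd_or_dvd hm1 with h | h
    · exact (h₃d ((Lin.dvd_symm hm hl h).trans hm3)).elim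
    · exact (Lin.dvd_symm hm La₂ h).trans hm3
  have hnd : ¬ a₂ ∣ a₁ := by
    intro hd
    obtain ⟨r, hr⟩ := dvd_same_degree La₁.hom La₁.ne La₂.hom (Lin.dvd_symm La₂ La₁ hd)
    exact hnp₁₂ r (by rw [ha₂, ha₁, hr]; ring)
  obtain ⟨r, hr⟩ := h31
  have h₃0 : q₃ ≠ 0 := by
    rintro rfl
    exact h₃d (dvd_zero _)
  have h2r : a₂ ∣ r := by
    rcases La₂.prime.dvd_or_dvd (hr ▸ h32) with h | h
    · exact (hnd h).elim
    · exact h
  obtain ⟨c, rfl⟩ := h2r
  have hc : c.IsHomogeneous 0 := by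
    have h4 : (a₁ * a₂).IsHomogeneous 2 := La₁.hom.mul La₂.hom
    refine quot_hom h4 (mul_ne_zero La₁.ne La₂.ne) ?_
    have h5 : c * (a₁ * a₂) = q₃ := by rw [hr]; ring
    rw [h5]
    exact hY h₃
  obtain ⟨c₀, rfl⟩ := const_of_hom0 hc
  have hc₀ : c₀ ≠ 0 := by
    rintro rfl
    exact h₃0 (by simp [hr])
  -- the last pair
  have h12 : q₁ + q₂ ∈ Y := Y.add_mem h₁ h₂
  have h120 : q₁ + q₂ ≠ 0 := by
    intro h
    refine hnp₁₂ (-1) ?_
    simp only [map_neg, map_one]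
    linear_combination h
  have hl12 : l ∣ q₁ + q₂ := ⟨a₁ + a₂, by rw [ha₁, ha₂]; ring⟩
  obtain ⟨m, hm, hm1, hm3⟩ := hh' _ h12 q₃ h₃ h120 (hdvd hl12)
  have hm1' : m ∣ l * (a₁ + a₂) := by
    have : q₁ + q₂ = l * (a₁ + a₂) := by rw [ha₁, ha₂]; ring
    rwa [this] at hm1
  rcases hm.prime.dvd_or_dvd hm1' with h | hsum
  · exact h₃d ((Lin.dvd_symm hm hl h).trans hm3)
  have hm3' : m ∣ a₁ * (a₂ * C c₀) := hr ▸ hm3
  rcases hm.prime.dvd_or_dvd hm3' with h | h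
  · have h5 : m ∣ a₂ := (dvd_add_right h).mp hsum
    exact hnd ((Lin.dvd_symm hm La₂ h5).trans h)
  · rcases hm.prime.dvd_or_dvd h with h | h
    · have h5 : m ∣ a₁ := (dvd_add_left h).mp hsum
      exact hnd ((Lin.dvd_symm hm La₂ h).trans h5)
    · exact hm.prime.not_unit (isUnit_of_dvd_unit h (isUnit_of_const hc₀))

/-- The case of one quadric. -/
theorem T_u1 (hf : IsRegCubic f) {Y : Submodule K (Pol K)} (hY : Y ≤ Sd K 2)
    (h : 1 ≤ finrank K Y) : 5 ≤ finrank K ↥(up Y ⊔ Fd f 3) := by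
  haveI := finDim hY
  haveI := finDim (up_le hY)
  obtain ⟨q, hq, hq0⟩ := exists_ne_zero h
  have h1 : (Sd K 1).map (mulBy q) ≤ Sd K 3 := map_le_Sd (hY hq) (by norm_num) le_rfl
  have h2 := L1 hf (hY hq) hq0 (Or.inr rfl) h1 (by
    intro p hp
    obtain ⟨w, -, rfl⟩ := mem_map_mulBy.mp hp
    exact dvd_mul_right _ _)
  rw [finrank_map_mulBy hq0, finrank_Sd] at h2
  have h3 := finrank_le_of_le (sup_le_sup_right (map_le_up hq) (Fd f 3))
  norm_num [Nat.choose] at h2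
  omega

/-- The case of two quadrics. -/
theorem T_u2 (hf : IsRegCubic f) {Y : Submodule K (Pol K)} (hY : Y ≤ Sd K 2)
    (h : 2 ≤ finrank K Y) : 7 ≤ finrank K ↥(up Y ⊔ Fd f 3) := by
  haveI := finDim hY
  haveI := finDim (up_le hY)
  obtain ⟨q₁, h₁, h₁0⟩ := exists_ne_zero (V := Y) (by omega)
  obtain ⟨q₂, h₂, h₂s⟩ := exists_not_mem (U := Submodule.span K {q₁}) (V := Y)
    (by have := finrank_span_le_card (R := K) ({q₁} : Set (Pol K)); simp at this; omega)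
  have hnp₁₂ : ∀ r : K, q₂ ≠ C r * q₁ := fun r hr => h₂s (mem_span_of_eq_C hr)
  have h₂0 : q₂ ≠ 0 := by
    rintro rfl
    exact h₂s (Submodule.zero_mem _)
  have hsY : ((Sd K 1).map (mulBy q₁) ⊔ (Sd K 1).map (mulBy q₂)) ≤ up Y :=
    sup_le (map_le_up h₁) (map_le_up h₂)
  by_cases hc : NoCommon q₁ q₂
  · have h6 := pair_six (hY h₁) h₁0 (hY h₂) hnp₁₂ hc
    have hle : (Sd K 1).map (mulBy q₁) ⊔ (Sd K 1).map (mulBy q₂) ≤ Sd K 3 :=
      sup_le (map_le_Sd (hY h₁) (by norm_num) le_rfl) (map_le_Sd (hY h₂) (by norm_num) le_rfl)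
    have h7 := L2 hf (k := 3) (hY h₁) h₁0 (hY h₂) h₂0 (by norm_num) (by norm_num [Nat.choose]) hle (by
      intro p hp
      obtain ⟨u, hu, v, hv, rfl⟩ := Submodule.mem_sup.mp hp
      obtain ⟨a, -, rfl⟩ := mem_map_mulBy.mp hu
      obtain ⟨b, -, rfl⟩ := mem_map_mulBy.mp hv
      refine Ideal.add_mem _ (Ideal.mul_mem_right _ _ ?_) (Ideal.mul_mem_right _ _ ?_)
      · exact Ideal.subset_span (by simp)
      · exact Ideal.subset_span (by simp))
    rw [h6] at h7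
    have h3 := finrank_le_of_le (sup_le_sup_right hsY (Fd f 3))
    omega
  · have hc' : ∃ l : Pol K, Lin l ∧ l ∣ q₁ ∧ l ∣ q₂ := by
      by_contra hcon
      exact hc fun l hl hd₁ hd₂ => hcon ⟨l, hl, hd₁, hd₂⟩
    obtain ⟨l, hl, hd₁, hd₂⟩ := hc'
    let Z : Submodule K (Pol K) := Submodule.span K {q₁, q₂}
    have hZY : Z ≤ Y := by
      refine Submodule.span_le.mpr ?_
      rintro x (rfl | rfl)
      · exact h₁
      · exact h₂
    have hZ2 : 2 ≤ finrank K Z := by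
      have h4 : Submodule.span K {q₁} < Z := by
        refine lt_of_le_of_ne (Submodule.span_mono (by simp)) ?_
        intro he
        apply h₂s
        rw [he]
        exact Submodule.subset_span (by simp)
      haveI := finDim (hZY.trans hY)
      have h5 := Submodule.finrank_lt_finrank_of_lt h4
      have h6 : finrank K (Submodule.span K {q₁}) = 1 := finrank_span_singleton h₁0
      omega
    have hZd : ∀ q ∈ Z, l ∣ q := by
      intro q hq
      induction hq using Submodule.span_induction with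
      | mem x hx =>
        rcases hx with rfl | rfl
        · exact hd₁
        · exact hd₂
      | zero => exact dvd_zero _
      | add x y _ _ hx hy => exact dvd_add hx hy
      | smul a x _ hx =>
        rw [smul_eq_C_mul]
        exact Dvd.dvd.mul_left hx _
    obtain ⟨V, hV, hVr, hVg⟩ := common_factor hf (hZY.trans hY) hl hZd
    have h5 := up_ge_five hV (by omega)
    have h3 := finrank_le_of_le (sup_le_sup_right (up_mono hZY) (Fd f 3))
    omega

/-- The case of three quadrics. -/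
theorem T_u3 (hf : IsRegCubic f) {Y : Submodule K (Pol K)} (hY : Y ≤ Sd K 2)
    (h : 3 ≤ finrank K Y) : 8 ≤ finrank K ↥(up Y ⊔ Fd f 3) := by
  haveI := finDim hY
  haveI := finDim (up_le hY)
  by_cases hc : ∃ l : Pol K, Lin l ∧ ∀ q ∈ Y, l ∣ q
  · obtain ⟨l, hl, hd⟩ := hc
    obtain ⟨V, hV, hVr, hVg⟩ := common_factor hf hY hl hd
    have h5 := up_ge_six hV (by omega)
    omega
  · have hnc : ∀ l : Pol K, Lin l → ∃ q ∈ Y, ¬ l ∣ q := by
      intro l hl
      by_contra hcon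
      push_neg at hcon
      exact hc ⟨l, hl, hcon⟩
    obtain ⟨q₁, h₁, q₂, h₂, h₁0, hnp, hn⟩ := exists_pair hY (by omega) hnc
    have h₂0 : q₂ ≠ 0 := by
      intro h0
      exact hnp 0 (by simp [h0])
    obtain ⟨q₃, h₃, h₃s⟩ := exists_not_mem
        (U := Submodule.span K {q₁} ⊔ Submodule.span K {q₂}) (V := Y) (by
      have h4 := finrank_sup_le (V := Submodule.span K {q₁}) (W := Submodule.span K {q₂})
      rw [finrank_span_singleton h₁0, finrank_span_singleton h₂0] at h4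
      omega)
    let q : Fin 3 → Pol K := ![q₁, q₂, q₃]
    have hq : ∀ i, (q i).IsHomogeneous 2 := by
      intro i
      fin_cases i
      · exact hY h₁
      · exact hY h₂
      · exact hY h₃
    have h8 := triple hf (q := q) hq h₁0 hnp hn (by
      intro r s hrs
      apply h₃s
      have hrs' : q₃ = C r * q₁ + C s * q₂ := hrs
      rw [hrs']
      exact Submodule.add_mem_sup (mem_span_of_eq_C rfl) (mem_span_of_eq_C rfl))
    have hsY : ((Sd K 1).map (mulBy (q 0)) ⊔ (Sd K 1).map (mulBy (q 1))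
        ⊔ (Sd K 1).map (mulBy (q 2))) ≤ up Y :=
      sup_le (sup_le (map_le_up h₁) (map_le_up h₂)) (map_le_up h₃)
    have h3 := finrank_le_of_le (sup_le_sup_right hsY (Fd f 3))
    omega

end Vale.Agent.P200
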