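import Vale.Agent.P200.DegTwo

/-!
# Growth from degree two to degree three: large subspaces, via a linear functional
-/

namespace Vale.Agent.P200

open MvPolynomial Module

variable {K : Type*} [Field K] {f : Fin 3 → Pol K}

theorem exists_functional {T : Submodule K (Pol K)} (hne : finrank K T < 10)
    (hT : T ≤ Sd K 3) :
    ∃ H : Pol K →ₗ[K] K, (∀ p ∈ T, H p = 0) ∧ ∃ p ∈ Sd K 3, H p ≠ 0 := by
  haveI := finDim hT
  obtain ⟨p, hp, hpT⟩ := exists_not_mem (U := T) (V := Sd K 3) (by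
    rw [finrank_Sd]
    norm_num [Nat.choose]
    omega)
  obtain ⟨H, hH, hH'⟩ := Submodule.exists_dual_map_eq_bot_of_notMem hpT inferInstance
  refine ⟨H, fun q hq => ?_, p, hp, hH⟩
  have : H q ∈ T.map H := Submodule.mem_map_of_mem hq
  rw [hH'] at this
  simpa using this

/-- The pairing defined by a functional. -/
noncomputable def Lam (H : Pol K →ₗ[K] K) : ↥(Sd K 1) →ₗ[K] Module.Dual K ↥(Sd K 2) :=
  LinearMap.mk₂ K (fun l q => H ((l : Pol K) * (q : Pol K)))
    (by intro a b c; simp [add_mul])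
    (by intro a b c; simp)
    (by intro a b c; simp [mul_add])
    (by intro a b c; simp)

theorem Lam_apply (H : Pol K →ₗ[K] K) (l : ↥(Sd K 1)) (q : ↥(Sd K 2)) :
    Lam H l q = H ((l : Pol K) * (q : Pol K)) := rfl

/-- The kernel of the pairing has dimension at most one. -/
theorem ker_Lam_le_one (hf : IsRegCubic f) {H : Pol K →ₗ[K] K} (hHf : ∀ i, H (f i) = 0)
    {p : Pol K} (hp : p ∈ Sd K 3) (hHp : H p ≠ 0) :
    finrank K (LinearMap.ker (Lam H)) ≤ 1 := by
  by_contra hcon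
  let N : Submodule K (Pol K) := (LinearMap.ker (Lam H)).map (Sd K 1).subtype
  have hN : ∀ l ∈ N, l ∈ Sd K 1 ∧ ∀ q ∈ Sd K 2, H (l * q) = 0 := by
    intro l hl
    obtain ⟨l', hl', rfl⟩ := hl
    refine ⟨l'.2, fun q hq => ?_⟩
    have h1 := LinearMap.congr_fun (LinearMap.mem_ker.mp hl') ⟨q, hq⟩
    rw [Lam_apply] at h1
    simpa using h1
  have hNr : finrank K N = finrank K (LinearMap.ker (Lam H)) :=
    Submodule.finrank_map_subtype_eq _ _
  have hN1 : N ≤ Sd K 1 := fun l hl => (hN l hl).1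
  haveI := finDim hN1
  obtain ⟨l₁, hl₁, hl₁0⟩ := exists_ne_zero (V := N) (by omega)
  obtain ⟨l₂, hl₂, hl₂s⟩ := exists_not_mem (U := Submodule.span K {l₁}) (V := N)
    (by have := finrank_span_le_card (R := K) ({l₁} : Set (Pol K)); simp at this; omega)
  have hl₂0 : l₂ ≠ 0 := by
    rintro rfl
    exact hl₂s (Submodule.zero_mem _)
  have L₁ : Lin l₁ := ⟨hN1 hl₁, hl₁0⟩
  have L₂ : Lin l₂ := ⟨hN1 hl₂, hl₂0⟩
  have hnd : ¬ l₁ ∣ l₂ := by
    intro hd
    obtain ⟨r, hr⟩ := dvd_same_degree L₁.hom L₁.ne L₂.hom hd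
    exact hl₂s (mem_span_of_eq_C hr)
  have h9 := pair_lower L₁ L₂ hnd 1
  rw [finrank_Sd, finrank_Sd] at h9
  norm_num [Nat.choose] at h9
  set A := (Sd K 2).map (mulBy l₁) ⊔ (Sd K 2).map (mulBy l₂) with hA
  have hA3 : A ≤ Sd K 3 :=
    sup_le (map_le_Sd L₁.hom (by norm_num) le_rfl) (map_le_Sd L₂.hom (by norm_num) le_rfl)
  have hAH : ∀ v ∈ A, H v = 0 := by
    intro v hv
    obtain ⟨u, hu, w, hw, rfl⟩ := Submodule.mem_sup.mp hv
    obtain ⟨a, ha, rfl⟩ := mem_map_mulBy.mp hu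
    obtain ⟨b, hb, rfl⟩ := mem_map_mulBy.mp hw
    rw [map_add, (hN l₁ hl₁).2 a ha, (hN l₂ hl₂).2 b hb, add_zero]
  have hfA : ∀ i, f i ∈ A := by
    intro i
    by_contra hnot
    have h3 : A < A ⊔ Submodule.span K {f i} := by
      refine lt_of_le_of_ne le_sup_left ?_
      intro he
      apply hnot
      rw [he]
      exact Submodule.mem_sup_right (Submodule.mem_span_singleton_self _)
    have hle : A ⊔ Submodule.span K {f i} ≤ Sd K 3 :=
      sup_le hA3 ((Submodule.span_singleton_le_iff_mem _ _).mpr (hf.hom i))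
    have h4 : finrank K A + 1 ≤ finrank K ↥(A ⊔ Submodule.span K {f i}) :=
      Submodule.finrank_lt_finrank_of_lt h3
    have h5 : A ⊔ Submodule.span K {f i} = Sd K 3 := by
      refine Submodule.eq_of_le_of_finrank_le hle ?_
      rw [finrank_Sd]
      norm_num [Nat.choose]
      omega
    have h6 : p ∈ A ⊔ Submodule.span K {f i} := by
      rw [h5]
      exact hp
    obtain ⟨u, hu, v, hv, rfl⟩ := Submodule.mem_sup.mp h6
    obtain ⟨r, rfl⟩ := Submodule.mem_span_singleton.mp hv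
    apply hHp
    rw [map_add, hAH u hu, map_smul, hHf i]
    simp
  refine NZ (k := 5) hf L₁.hom L₁.ne L₂.hom L₂.ne (by norm_num) (by norm_num [Nat.choose]) fun i => ?_
  obtain ⟨u, hu, w, hw, huw⟩ := Submodule.mem_sup.mp (hfA i)
  obtain ⟨a, -, rfl⟩ := mem_map_mulBy.mp hu
  obtain ⟨b, -, rfl⟩ := mem_map_mulBy.mp hw
  rw [← huw]
  refine Ideal.add_mem _ (Ideal.mul_mem_right _ _ ?_) (Ideal.mul_mem_right _ _ ?_)
  · exact Ideal.subset_span (by simp)
  · exact Ideal.subset_span (by simp)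

/-- The rank-nullity count for the pairing. -/
theorem Lam_count (H : Pol K →ₗ[K] K) {Y : Submodule K (Pol K)} (hY : Y ≤ Sd K 2)
    (hH : ∀ l ∈ Sd K 1, ∀ q ∈ Y, H (l * q) = 0) :
    LinearMap.range (Lam H) ≤ (Y.comap (Sd K 2).subtype).dualAnnihilator ∧
      finrank K (Y.comap (Sd K 2).subtype).dualAnnihilator + finrank K Y = 6 := by
  constructor
  · rintro _ ⟨l, rfl⟩
    rw [Submodule.mem_dualAnnihilator]
    intro q hq
    rw [Lam_apply]
    exact hH l l.2 q hq
  · have h1 := Subspace.finrank_add_finrank_dualAnnihilator_eq (Y.comap (Sd K 2).subtype)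
    have h2 : finrank K ↥(Y.comap (Sd K 2).subtype) = finrank K Y :=
      (Submodule.comapSubtypeEquivOfLe hY).finrank_eq
    rw [h2, finrank_Sd] at h1
    norm_num [Nat.choose] at h1
    omega

/-- The mixed count. -/
theorem pair_mixed {z b : Pol K} (hz : Lin z) (hb : b.IsHomogeneous 2) (hb0 : b ≠ 0)
    (hnd : ¬ z ∣ b) :
    8 ≤ finrank K ↥((Sd K 2).map (mulBy z) ⊔ (Sd K 1).map (mulBy b)) := by
  have h1 := Submodule.finrank_sup_add_finrank_inf_eq
    ((Sd K 2).map (mulBy z)) ((Sd K 1).map (mulBy b))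
  rw [finrank_map_mulBy hz.ne, finrank_map_mulBy hb0, finrank_Sd, finrank_Sd] at h1
  norm_num [Nat.choose] at h1
  have h2 : (Sd K 2).map (mulBy z) ⊓ (Sd K 1).map (mulBy b) ≤ Submodule.span K {z * b} := by
    rintro p ⟨hp1, hp2⟩
    obtain ⟨r, -, rfl⟩ := mem_map_mulBy.mp hp1
    obtain ⟨l, hl, hl'⟩ := mem_map_mulBy.mp hp2
    by_cases hl0 : l = 0
    · rw [hl0, mul_zero] at hl'
      rw [← hl']
      exact Submodule.zero_mem _
    have Ll : Lin l := ⟨hl, hl0⟩
    have h3 : z ∣ b * l := ⟨r, hl'⟩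
    rcases hz.prime.dvd_or_dvd h3 with h4 | h4
    · exact (hnd h4).elim
    · obtain ⟨c, hc⟩ := dvd_same_degree hz.hom hz.ne Ll.hom h4
      rw [← hl', hc]
      exact mem_span_of_eq_C (r := c) (by ring)
  have h3 : finrank K ↥((Sd K 2).map (mulBy z) ⊓ (Sd K 1).map (mulBy b)) ≤ 1 := by
    have h4 := finrank_le_of_le h2
    have h5 := finrank_span_le_card (R := K) ({z * b} : Set (Pol K))
    simp only [Set.toFinset_singleton, Finset.card_singleton] at h5
    omega
  omega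

/-- The case of five quadrics. -/
theorem T_u5 (hf : IsRegCubic f) {Y : Submodule K (Pol K)} (hY : Y ≤ Sd K 2)
    (h : 5 ≤ finrank K Y) : 10 ≤ finrank K ↥(up Y ⊔ Fd f 3) := by
  haveI := finDim hY
  haveI := finDim (up_le hY)
  by_contra hcon
  have hT : up Y ⊔ Fd f 3 ≤ Sd K 3 := sup_le (up_le hY) (Fd_le 3)
  obtain ⟨H, hH, p, hp, hHp⟩ := exists_functional (by omega) hT
  have hHf : ∀ i, H (f i) = 0 := fun i => hH _ (Submodule.mem_sup_right (by
    rw [mem_Fd]
    exact ⟨f_mem_Fid i, hf.hom i⟩))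
  have hHY : ∀ l ∈ Sd K 1, ∀ q ∈ Y, H (l * q) = 0 := fun l hl q hq =>
    hH _ (Submodule.mem_sup_left (mul_mem_up hl hq))
  obtain ⟨h1, h2⟩ := Lam_count H hY hHY
  have h3 := LinearMap.finrank_range_add_finrank_ker (Lam H)
  rw [finrank_Sd] at h3
  norm_num [Nat.choose] at h3
  have h4 := Submodule.finrank_mono h1
  have h5 := ker_Lam_le_one hf hHf hp hHp
  omega

/-- The case of four quadrics. -/
theorem T_u4 (hf : IsRegCubic f) {Y : Submodule K (Pol K)} (hY : Y ≤ Sd K 2)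
    (h : 4 ≤ finrank K Y) : 9 ≤ finrank K ↥(up Y ⊔ Fd f 3) := by
  haveI := finDim hY
  haveI := finDim (up_le hY)
  by_cases h5 : 5 ≤ finrank K Y
  · have := T_u5 hf hY h5
    omega
  have hY4 : finrank K Y = 4 := by omega
  by_contra hcon
  have hT : up Y ⊔ Fd f 3 ≤ Sd K 3 := sup_le (up_le hY) (Fd_le 3)
  obtain ⟨H, hH, p, hp, hHp⟩ := exists_functional (by omega) hT
  have hHf : ∀ i, H (f i) = 0 := fun i => hH _ (Submodule.mem_sup_right (by
    rw [mem_Fd]
    exact ⟨f_mem_Fid i, hf.hom i⟩))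
  have hHY : ∀ l ∈ Sd K 1, ∀ q ∈ Y, H (l * q) = 0 := fun l hl q hq =>
    hH _ (Submodule.mem_sup_left (mul_mem_up hl hq))
  obtain ⟨h1, h2⟩ := Lam_count H hY hHY
  have h3 := LinearMap.finrank_range_add_finrank_ker (Lam H)
  rw [finrank_Sd] at h3
  norm_num [Nat.choose] at h3
  have h4 := Submodule.finrank_mono h1
  have h6 := ker_Lam_le_one hf hHf hp hHp
  have hk : finrank K (LinearMap.ker (Lam H)) = 1 := by omega
  have hr : LinearMap.range (Lam H) = (Y.comap (Sd K 2).subtype).dualAnnihilator :=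
    Submodule.eq_of_le_of_finrank_le h1 (by omega)
  have hk' : 0 < finrank K (LinearMap.ker (Lam H)) := by omega
  obtain ⟨z, hz0⟩ := (finrank_pos_iff_exists_ne_zero (R := K) (M := LinearMap.ker (Lam H))).mp hk'
  have hzS : (z.1 : Pol K) ≠ 0 := by
    intro h0
    exact hz0 (Subtype.ext (Subtype.ext h0))
  set z' : Pol K := z.1.1 with hz'
  have Lz : Lin z' := ⟨z.1.2, hzS⟩
  have hzK : ∀ q ∈ Sd K 2, H (z' * q) = 0 := by
    intro q hq
    have h7 := LinearMap.congr_fun (LinearMap.mem_ker.mp z.2) ⟨q, hq⟩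
    rw [Lam_apply] at h7
    simpa using h7
  -- the double annihilator gives `z' S₁ ⊆ Y`
  have hzY : ∀ l ∈ Sd K 1, z' * l ∈ Y := by
    intro l hl
    have hmem : (z' * l).IsHomogeneous 2 := Lz.hom.mul hl
    have h7 := (Subspace.forall_mem_dualAnnihilator_apply_eq_zero_iff
      (Y.comap (Sd K 2).subtype) (⟨z' * l, hmem⟩ : ↥(Sd K 2))).mp (by
        intro φ hφ
        rw [← hr] at hφ
        obtain ⟨m, rfl⟩ := hφ
        rw [Lam_apply]
        have h8 := hzK ((m : Pol K) * l) ((m.2 : (m : Pol K).IsHomogeneous 1).mul hl)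
        rw [← h8]
        congr 1
        simp only
        ring)
    exact h7
  have hzYs : (Sd K 1).map (mulBy z') ≤ Y := by
    intro v hv
    obtain ⟨l, hl, rfl⟩ := mem_map_mulBy.mp hv
    exact hzY l hl
  obtain ⟨b, hbY, hbn⟩ := exists_not_mem (U := (Sd K 1).map (mulBy z')) (V := Y) (by
    rw [finrank_map_mulBy Lz.ne, finrank_Sd]
    norm_num [Nat.choose]
    omega)
  have hb0 : b ≠ 0 := by
    rintro rfl
    exact hbn (Submodule.zero_mem _)
  have hb2 : b.IsHomogeneous 2 := hY hbY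
  have hnd : ¬ z' ∣ b := by
    rintro ⟨e, rfl⟩
    refine hbn (mem_map_mulBy.mpr ⟨e, ?_, rfl⟩)
    refine quot_hom Lz.hom Lz.ne (β := 1) (α := 1) ?_
    rwa [mul_comm]
  have h8 := pair_mixed Lz hb2 hb0 hnd
  have hAup : (Sd K 2).map (mulBy z') ⊔ (Sd K 1).map (mulBy b) ≤ up Y := by
    refine sup_le ?_ (map_le_up hbY)
    have h9 : Sd K 2 ≤ (up Y).comap (mulBy z') := by
      refine (Sd_succ_le 1).trans ?_
      refine Submodule.mul_le.mpr fun l hl m hm => ?_
      change z' * (l * m) ∈ up Y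
      rw [mul_left_comm]
      exact mul_mem_up hl (hzY m hm)
    exact Submodule.map_le_iff_le_comap.mpr h9
  have hA3 : (Sd K 2).map (mulBy z') ⊔ (Sd K 1).map (mulBy b) ≤ Sd K 3 :=
    sup_le (map_le_Sd Lz.hom (by norm_num) le_rfl) (map_le_Sd hb2 (by norm_num) le_rfl)
  have h9 := L2 hf (k := 4) Lz.hom Lz.ne hb2 hb0 (by norm_num) (by norm_num [Nat.choose]) hA3 (by
    intro v hv
    obtain ⟨u, hu, w, hw, rfl⟩ := Submodule.mem_sup.mp hv
    obtain ⟨a, -, rfl⟩ := mem_map_mulBy.mp hu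
    obtain ⟨c, -, rfl⟩ := mem_map_mulBy.mp hw
    refine Ideal.add_mem _ (Ideal.mul_mem_right _ _ ?_) (Ideal.mul_mem_right _ _ ?_)
    · exact Ideal.subset_span (by simp)
    · exact Ideal.subset_span (by simp))
  have h10 := finrank_le_of_le (sup_le_sup_right hAup (Fd f 3))
  omega

end Vale.Agent.P200
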