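import Vale.Agent.P200.Final

/-!
# The graded pieces of `J` have the same dimension as those of `I`
-/

namespace Vale.Agent.P200

open MvPolynomial Module

variable {K : Type*} [Field K] {f : Fin 3 → Pol K}

/-- The exponent vectors spanning `J_d`. -/
def expSet (I : Ideal (Pol K)) (d : ℕ) : Set (Fin 3 →₀ ℕ) :=
  {e | e.degree = d ∧ (InP e ∨ lexRank e < qDim I d)}

theorem expSet_finite (I : Ideal (Pol K)) (d : ℕ) : (expSet I d).Finite :=
  (finite_degree d).subset fun _ he => he.1

theorem lexPlusPowers_eq (I : Ideal (Pol K)) (d : ℕ) :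
    lexPlusPowers I d = Submodule.span K (Set.range fun e : expSet I d => (monomial e.1 1 : Pol K)) := by
  unfold lexPlusPowers
  congr 1
  ext p
  constructor
  · rintro ⟨e, h1, h2, rfl⟩
    exact ⟨⟨e, h1, h2⟩, rfl⟩
  · rintro ⟨⟨e, h1, h2⟩, rfl⟩
    exact ⟨e, h1, h2, rfl⟩

theorem finrank_lexPlusPowers (I : Ideal (Pol K)) (d : ℕ) :
    finrank K (lexPlusPowers I d) = (expSet I d).ncard := by
  classical
  haveI : Fintype (expSet I d) := (expSet_finite I d).fintype
  rw [lexPlusPowers_eq]
  have hli : LinearIndependent K fun e : expSet I d => (monomial e.1 1 : Pol K) := by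
    have h := (basisMonomials (Fin 3) K).linearIndependent.comp
      (Subtype.val : expSet I d → (Fin 3 →₀ ℕ)) Subtype.val_injective
    have h2 : (⇑(basisMonomials (Fin 3) K) ∘ (Subtype.val : expSet I d → (Fin 3 →₀ ℕ)))
        = fun e : expSet I d => (monomial e.1 1 : Pol K) := by
      funext e
      simp
    rw [h2] at h
    exact h
  rw [finrank_span_eq_card hli, Set.ncard_eq_toFinset_card']
  simp

theorem table_count : ∀ d ∈ Finset.range 7, ∀ q ∈ Finset.range 8, q ≤ nonPN d →
    (Finset.univ.filter fun t : Fin 3 × Fin 3 × Fin 3 =>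
      t.1.val + t.2.1.val + t.2.2.val = d ∧ rankN t.1.val t.2.1.val t.2.2.val < q).card = q := by
  decide

theorem nonPN_large {d : ℕ} (hd : 7 ≤ d) : nonPN d = 0 := by
  unfold nonPN
  rw [Finset.card_eq_zero, Finset.filter_eq_empty_iff]
  rintro ⟨a, b, c⟩ -
  have := a.2
  have := b.2
  have := c.2
  simp only
  omega

theorem ncard_expSet (I : Ideal (Pol K)) (d : ℕ) :
    (expSet I d).ncard = Set.ncard {e : Fin 3 →₀ ℕ | e.degree = d ∧ InP e} +
      (Finset.univ.filter fun t : Fin 3 × Fin 3 × Fin 3 =>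
        t.1.val + t.2.1.val + t.2.2.val = d ∧
          rankN t.1.val t.2.1.val t.2.2.val < qDim I d).card := by
  classical
  have h := ncard_nonP (fun a b c => a + b + c = d ∧ rankN a b c < qDim I d)
  rw [← h]
  have h2 : expSet I d = {e : Fin 3 →₀ ℕ | e.degree = d ∧ InP e} ∪
      {e : Fin 3 →₀ ℕ | ¬ InP e ∧ (e 0 + e 1 + e 2 = d ∧ rankN (e 0) (e 1) (e 2) < qDim I d)} := by
    ext e
    simp only [expSet, Set.mem_setOf_eq, Set.mem_union, ← lexRank_eq, ← degree_eq]
    tauto
  rw [h2, Set.ncard_union_eq ?_ ((finite_degree d).subset fun e he => he.1)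
    ((finite_degree d).subset fun e he => by
      have : e.degree = d := by rw [degree_eq]; exact he.2.1
      exact this)]
  rw [Set.disjoint_left]
  rintro e ⟨-, h⟩ ⟨h', -⟩
  exact h' h

/-- Above the socle degree everything lies in the ideal. -/
theorem Sd_le_Fd (hf : IsRegCubic f) {d : ℕ} (hd : 7 ≤ d) : Sd K d ≤ Fd f d := by
  induction d, hd using Nat.le_induction with
  | base => exact le_of_eq (F7_top hf).symm
  | succ d hd ih =>
    refine (Sd_succ_le d).trans ?_
    refine Submodule.mul_le.mpr fun l hl q hq => ?_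
    have h1 := mem_Fd.mp (ih hq)
    rw [mem_Fd]
    refine ⟨Ideal.mul_mem_left _ _ h1.1, ?_⟩
    have h2 : l.IsHomogeneous 1 := hl
    have h3 := h1.2.mul h2
    rwa [mul_comm] at h3

/-- Each `J_d` has the same dimension as `I_d`. -/
theorem finrank_J_eq (hf : IsRegCubic f) {I : Ideal (Pol K)} (hI : ∀ i, f i ∈ I) (d : ℕ) :
    finrank K (lexPlusPowers I d) = finrank K (degPart I d) := by
  rw [finrank_lexPlusPowers, ncard_expSet, degPart_eq]
  by_cases hd : d ≤ 6
  · have h1 := ncard_InP_table hf hd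
    have h2 := qq_le hf hI hd
    have h3 := finrank_Fd_le_Id hI d
    rw [qDim_eq hf I hd]
    have h4 : nonPN d ≤ 7 := by
      obtain ⟨h0', h1', h2', h3', h4', h5', h6'⟩ := nonPN_table
      interval_cases d <;> omega
    rw [table_count d (Finset.mem_range.mpr (by omega)) _ (Finset.mem_range.mpr (by omega)) h2, h1]
    unfold qq
    omega
  · have hd7 : 7 ≤ d := by omega
    have h1 : Id I d = Sd K d :=
      le_antisymm (Id_le I d) ((Sd_le_Fd hf hd7).trans (Fd_le_Id hI d))
    have h2 := ncard_InP d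
    rw [nonPN_large hd7] at h2
    have h3 : (Finset.univ.filter fun t : Fin 3 × Fin 3 × Fin 3 =>
        t.1.val + t.2.1.val + t.2.2.val = d ∧
          rankN t.1.val t.2.1.val t.2.2.val < qDim I d).card = 0 := by
      rw [Finset.card_eq_zero, Finset.filter_eq_empty_iff]
      rintro ⟨a, b, c⟩ -
      have := a.2
      have := b.2
      have := c.2
      simp only
      omega
    rw [h3, h1, finrank_Sd]
    omega

end Vale.Agent.P200
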