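import Vale.Agent.P200.DegTwoB

/-!
# The Gorenstein pairing of the complete intersection
-/

namespace Vale.Agent.P200

open MvPolynomial Module

variable {K : Type*} [Field K] {f : Fin 3 → Pol K}

/-- There is a functional whose kernel on the degree six part is exactly the ideal. -/
theorem exists_tau (hf : IsRegCubic f) :
    ∃ τ : Pol K →ₗ[K] K, ∀ p ∈ Sd K 6, (τ p = 0 ↔ p ∈ Fid f) := by
  obtain ⟨p₀, hp₀, hp₀F⟩ := exists_not_mem (U := Fd f 6) (V := Sd K 6) (by
    rw [finrank_F6 hf, finrank_Sd]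
    norm_num [Nat.choose])
  obtain ⟨τ, hτ, hτ'⟩ := Submodule.exists_dual_map_eq_bot_of_notMem hp₀F inferInstance
  have hker : ∀ v ∈ Fd f 6, τ v = 0 := by
    intro v hv
    have : τ v ∈ (Fd f 6).map τ := Submodule.mem_map_of_mem hv
    rw [hτ'] at this
    simpa using this
  obtain ⟨g, -, hg⟩ := codim_one (Fd_le (f := f) 6) (by
    rw [finrank_F6 hf, finrank_Sd]
    norm_num [Nat.choose])
  have hsup : Sd K 6 ≤ Fd f 6 ⊔ Submodule.span K {p₀} := by
    refine Submodule.eq_of_le_of_finrank_le (sup_le (Fd_le 6)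
      ((Submodule.span_singleton_le_iff_mem _ _).mpr hp₀)) ?_ |>.ge
    have h3 : Fd f 6 < Fd f 6 ⊔ Submodule.span K {p₀} := by
      refine lt_of_le_of_ne le_sup_left ?_
      intro h
      apply hp₀F
      rw [h]
      exact Submodule.mem_sup_right (Submodule.mem_span_singleton_self _)
    haveI : FiniteDimensional K ↥(Fd f 6 ⊔ Submodule.span K {p₀}) :=
      Submodule.finiteDimensional_of_le (sup_le (Fd_le 6)
        ((Submodule.span_singleton_le_iff_mem _ _).mpr hp₀))
    have h4 := Submodule.finrank_lt_finrank_of_lt h3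
    rw [finrank_F6 hf] at h4
    rw [finrank_Sd]
    norm_num [Nat.choose]
    omega
  refine ⟨τ, fun p hp => ⟨fun h0 => ?_, fun h0 => ?_⟩⟩
  · obtain ⟨v, hv, w, hw, rfl⟩ := Submodule.mem_sup.mp (hsup hp)
    obtain ⟨r, rfl⟩ := Submodule.mem_span_singleton.mp hw
    rw [map_add, hker v hv, zero_add, map_smul, smul_eq_mul] at h0
    have hr : r = 0 := (mul_eq_zero.mp h0).resolve_right hτ
    rw [hr, zero_smul, add_zero]
    exact (mem_Fd.mp hv).1
  · exact hker p (mem_Fd.mpr ⟨h0, hp⟩)

/-- Nondegeneracy of the pairing. -/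
theorem nondeg (hf : IsRegCubic f) {τ : Pol K →ₗ[K] K}
    (hτ : ∀ p ∈ Sd K 6, (τ p = 0 ↔ p ∈ Fid f)) :
    ∀ (n k : ℕ), n + k = 6 → ∀ a : Pol K, a.IsHomogeneous k →
      (∀ b : Pol K, b.IsHomogeneous n → τ (b * a) = 0) → a ∈ Fid f := by
  intro n
  induction n with
  | zero =>
    intro k hk a ha h
    have hk6 : k = 6 := by omega
    subst hk6
    have h1 := h 1 (isHomogeneous_one _ _)
    rw [one_mul] at h1
    exact (hτ a ha).mp h1
  | succ n ih =>
    intro k hk a ha h
    refine socle hf (k := k) (by omega) ha fun j => ?_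
    refine ih (k + 1) (by omega) _ (by
      have := (isHomogeneous_X K j).mul ha
      rwa [add_comm] at this) ?_
    intro b hb
    have h1 := h (b * X j) (hb.mul (isHomogeneous_X K j))
    rw [← h1]
    congr 1
    ring

/-- The orthogonal complement with respect to the pairing, in degree `n`. -/
noncomputable def perp (τ : Pol K →ₗ[K] K) (n : ℕ) (V : Submodule K (Pol K)) :
    Submodule K (Pol K) where
  carrier := {b | b ∈ Sd K n ∧ ∀ c ∈ V, τ (b * c) = 0}
  add_mem' := by
    rintro a b ⟨ha, ha'⟩ ⟨hb, hb'⟩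
    refine ⟨Submodule.add_mem _ ha hb, fun c hc => ?_⟩
    rw [add_mul, map_add, ha' c hc, hb' c hc, add_zero]
  zero_mem' := ⟨Submodule.zero_mem _, fun c _ => by simp⟩
  smul_mem' := by
    rintro r a ⟨ha, ha'⟩
    refine ⟨Submodule.smul_mem _ _ ha, fun c hc => ?_⟩
    rw [smul_mul_assoc, map_smul, ha' c hc, smul_zero]

theorem mem_perp {τ : Pol K →ₗ[K] K} {n : ℕ} {V : Submodule K (Pol K)} {b : Pol K} :
    b ∈ perp τ n V ↔ b ∈ Sd K n ∧ ∀ c ∈ V, τ (b * c) = 0 := Iff.rfl

theorem perp_le (τ : Pol K →ₗ[K] K) (n : ℕ) (V : Submodule K (Pol K)) : perp τ n V ≤ Sd K n :=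
  fun _ hb => hb.1

/-- The pairing as a linear map. -/
noncomputable def pairing (τ : Pol K →ₗ[K] K) (n : ℕ) (V : Submodule K (Pol K)) :
    ↥V →ₗ[K] Module.Dual K ↥(Sd K n) :=
  LinearMap.mk₂ K (fun c b => τ ((b : Pol K) * (c : Pol K)))
    (by intro a b c; simp [mul_add])
    (by intro a b c; simp)
    (by intro a b c; simp [add_mul])
    (by intro a b c; simp)

theorem pairing_apply (τ : Pol K →ₗ[K] K) (n : ℕ) (V : Submodule K (Pol K)) (c : ↥V)
    (b : ↥(Sd K n)) : pairing τ n V c b = τ ((b : Pol K) * (c : Pol K)) := rfl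

/-- The dimension of the orthogonal complement. -/
theorem finrank_perp (hf : IsRegCubic f) {τ : Pol K →ₗ[K] K}
    (hτ : ∀ p ∈ Sd K 6, (τ p = 0 ↔ p ∈ Fid f)) {m n : ℕ} (hmn : n + m = 6)
    {V : Submodule K (Pol K)} (hF : Fd f m ≤ V) (hV : V ≤ Sd K m) :
    finrank K (perp τ n V) + finrank K V = finrank K (Sd K n) + finrank K (Fd f m) := by
  haveI := finDim hV
  haveI := finDim (perp_le τ n V)
  have h1 := LinearMap.finrank_range_add_finrank_ker (pairing τ n V)
  have h2 := Subspace.finrank_add_finrank_dualCoannihilator_eq (LinearMap.range (pairing τ n V))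
  -- the kernel is the ideal part
  have h3 : finrank K (LinearMap.ker (pairing τ n V)) = finrank K (Fd f m) := by
    have h4 : (LinearMap.ker (pairing τ n V)).map V.subtype = Fd f m := by
      ext c
      constructor
      · rintro ⟨c', hc', rfl⟩
        have hc'h : (c' : Pol K).IsHomogeneous m := hV c'.2
        rw [mem_Fd]
        refine ⟨nondeg hf hτ n m hmn _ hc'h fun b hb => ?_, hc'h⟩
        have h5 := LinearMap.congr_fun (LinearMap.mem_ker.mp hc') ⟨b, hb⟩
        rw [pairing_apply] at h5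
        simpa using h5
      · intro hc
        refine ⟨⟨c, hF hc⟩, ?_, rfl⟩
        rw [SetLike.mem_coe, LinearMap.mem_ker]
        ext b
        rw [pairing_apply]
        have hb : (b : Pol K).IsHomogeneous n := b.2
        have hmem : (b : Pol K) * c ∈ Sd K 6 := by
          have h6 := hb.mul (mem_Fd.mp hc).2
          rwa [hmn] at h6
        have h7 : (b : Pol K) * c ∈ Fid f := Ideal.mul_mem_left _ _ (mem_Fd.mp hc).1
        simpa using (hτ _ hmem).mpr h7
    rw [← h4]
    exact (Submodule.finrank_map_subtype_eq _ _).symm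
  -- the coannihilator is the orthogonal complement
  have h5 : finrank K (LinearMap.range (pairing τ n V)).dualCoannihilator
      = finrank K (perp τ n V) := by
    have h6 : ((LinearMap.range (pairing τ n V)).dualCoannihilator).map (Sd K n).subtype
        = perp τ n V := by
      ext b
      constructor
      · rintro ⟨b', hb', rfl⟩
        refine ⟨b'.2, fun c hc => ?_⟩
        rw [SetLike.mem_coe, Submodule.mem_dualCoannihilator] at hb'
        exact hb' _ ⟨⟨c, hc⟩, rfl⟩
      · rintro ⟨hb, hb'⟩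
        refine ⟨⟨b, hb⟩, ?_, rfl⟩
        rw [SetLike.mem_coe, Submodule.mem_dualCoannihilator]
        rintro _ ⟨c, rfl⟩
        exact hb' c.1 c.2
    rw [← h6]
    exact (Submodule.finrank_map_subtype_eq _ _).symm
  omega

end Vale.Agent.P200
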