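import Vale.Agent.P200.Monomials

/-!
# The Eisenbud-Green-Harris statement for three cubics in three variables
-/

namespace Vale.Agent.P200

open MvPolynomial Module

variable {K : Type*} [Field K] {f : Fin 3 → Pol K}

theorem degPart_eq (I : Ideal (Pol K)) (d : ℕ) : degPart I d = Id I d := rfl

theorem ncard_InP_table (hf : IsRegCubic f) {d : ℕ} (hd : d ≤ 6) :
    Set.ncard {e : Fin 3 →₀ ℕ | e.degree = d ∧ InP e} = finrank K (Fd f d) := by
  have h1 := ncard_InP d
  obtain ⟨h0', h1', h2', h3', h4', h5', h6'⟩ := nonPN_table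
  interval_cases d
  · rw [Fd_low hf (by norm_num)]
    norm_num [Nat.choose] at h1
    omega
  · rw [Fd_low hf (by norm_num)]
    norm_num [Nat.choose] at h1
    omega
  · rw [Fd_low hf (by norm_num)]
    norm_num [Nat.choose] at h1
    omega
  · rw [finrank_F3 hf]
    norm_num [Nat.choose] at h1
    omega
  · rw [finrank_F4 hf]
    norm_num [Nat.choose] at h1
    omega
  · rw [finrank_F5 hf]
    norm_num [Nat.choose] at h1
    omega
  · rw [finrank_F6 hf]
    norm_num [Nat.choose] at h1
    omega

theorem qDim_eq (hf : IsRegCubic f) (I : Ideal (Pol K)) {d : ℕ} (hd : d ≤ 6) :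
    qDim I d = qq f I d := by
  unfold qDim qq
  rw [ncard_InP_table hf hd, degPart_eq]

theorem qq_le (hf : IsRegCubic f) {I : Ideal (Pol K)} (hI : ∀ i, f i ∈ I) {d : ℕ} (hd : d ≤ 6) :
    qq f I d ≤ nonPN d := by
  have h1 := finrank_Id_le I d
  have h2 := ncard_InP d
  rw [ncard_InP_table hf hd] at h2
  unfold qq
  omega

/-- The rank condition propagates along multiplication by a variable. -/
theorem closure_monomial (hf : IsRegCubic f) {I : Ideal (Pol K)} (hI : ∀ i, f i ∈ I)
    {e : Fin 3 →₀ ℕ} {d : ℕ} (hde : e.degree = d) (i : Fin 3)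
    (he : InP e ∨ lexRank e < qDim I d) :
    InP (e + Finsupp.single i 1) ∨ lexRank (e + Finsupp.single i 1) < qDim I (d + 1) := by
  by_cases hP : InP (e + Finsupp.single i 1)
  · exact Or.inl hP
  right
  obtain ⟨h0, h1, h2⟩ := (not_InP_iff _).mp hP
  have hnP : ¬ InP e := by
    rw [not_InP_iff]
    simp only [Finsupp.add_apply] at h0 h1 h2
    omega
  have hrk : lexRank e < qDim I d := he.resolve_left hnP
  simp only [Finsupp.add_apply] at h0 h1 h2
  have hd' : d = e 0 + e 1 + e 2 := by rw [← hde, degree_eq]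
  have hsi : ∀ j : Fin 3, j ≠ i → e j + (Finsupp.single i 1 : Fin 3 →₀ ℕ) j = e j := by
    intro j hj
    simp [Finsupp.single_apply, Ne.symm hj]
  have hii : e i + (Finsupp.single i 1 : Fin 3 →₀ ℕ) i = e i + 1 := by simp
  have hd5 : d ≤ 5 := by
    have h3 : e i + 1 < 3 := by
      rw [← hii]
      fin_cases i
      · exact h0
      · exact h1
      · exact h2
    fin_cases i <;> simp at h3 <;> omega
  have hd6 : d ≤ 6 := by omega
  have hq := qq_le hf hI hd6
  rw [qDim_eq hf I hd6] at hrk
  rw [qDim_eq hf I (by omega : d + 1 ≤ 6)]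
  rw [lexRank_eq] at hrk ⊢
  have hgrowth := growth hf hI hd5
  have hmono : phi d (rankN (e 0) (e 1) (e 2) + 1) ≤ phi d (qq f I d) := by
    have h6 : nonPN d ≤ 7 := by
      obtain ⟨h0', h1', h2', h3', h4', h5', h6'⟩ := nonPN_table
      interval_cases d <;> omega
    refine phi_mono d (Finset.mem_range.mpr (by omega)) _ (Finset.mem_range.mpr (by omega)) _
      (Finset.mem_range.mpr (by omega)) hrk
  have ht := table_rank (e 0) (Finset.mem_range.mpr (by omega)) (e 1)
    (Finset.mem_range.mpr (by omega)) (e 2) (Finset.mem_range.mpr (by omega))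
  rw [← hd'] at ht
  obtain ⟨t0, t1, t2⟩ := ht
  refine lt_of_lt_of_le ?_ (hmono.trans hgrowth)
  fin_cases i
  · simp at h0 h1 h2 ⊢
    exact t0 h0
  · simp at h0 h1 h2 ⊢
    exact t1 h1
  · simp at h0 h1 h2 ⊢
    exact t2 h2

/-- The spaces `J_d` are closed under multiplication by the variables. -/
theorem closure_X (hf : IsRegCubic f) {I : Ideal (Pol K)} (hI : ∀ i, f i ∈ I) {d : ℕ} (i : Fin 3)
    {p : Pol K} (hp : p ∈ lexPlusPowers I d) : X i * p ∈ lexPlusPowers I (d + 1) := by
  unfold lexPlusPowers at hp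
  induction hp using Submodule.span_induction with
  | mem x hx =>
    obtain ⟨e, hde, he, rfl⟩ := hx
    refine Submodule.subset_span ⟨e + Finsupp.single i 1, ?_, closure_monomial hf hI hde i he, ?_⟩
    · rw [map_add, hde]
      simp
    · rw [X, monomial_mul, one_mul, add_comm]
  | zero => simp
  | add x y _ _ hx hy =>
    rw [mul_add]
    exact Submodule.add_mem _ hx hy
  | smul a x _ hx =>
    rw [mul_smul_comm]
    exact Submodule.smul_mem _ _ hx

/-- The sum of the `J_d` is stable under multiplication by all polynomials. -/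
theorem closure_all (hf : IsRegCubic f) {I : Ideal (Pol K)} (hI : ∀ i, f i ∈ I) (r : Pol K)
    {p : Pol K} (hp : p ∈ ⨆ d, lexPlusPowers I d) : r * p ∈ ⨆ d, lexPlusPowers I d := by
  have hX : ∀ (i : Fin 3) {p : Pol K}, p ∈ ⨆ d, lexPlusPowers I d →
      X i * p ∈ ⨆ d, lexPlusPowers I d := by
    intro i p hp
    induction hp using Submodule.iSup_induction' with
    | mem d x hx => exact Submodule.mem_iSup_of_mem (d + 1) (closure_X hf hI i hx)
    | zero => simp
    | add x y _ _ hx hy =>
      rw [mul_add]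
      exact Submodule.add_mem _ hx hy
  induction r using MvPolynomial.induction_on generalizing p with
  | C a =>
    rw [← smul_eq_C_mul]
    exact Submodule.smul_mem _ _ hp
  | add r s hr hs =>
    rw [add_mul]
    exact Submodule.add_mem _ (hr hp) (hs hp)
  | mul_X r i hr =>
    rw [mul_assoc]
    exact hr (hX i hp)

end Vale.Agent.P200
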