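import Vale.Agent.P200.Dual

/-!
# The growth inequalities for ideals containing the three cubics
-/

namespace Vale.Agent.P200

open MvPolynomial Module

variable {K : Type*} [Field K] {f : Fin 3 → Pol K}

/-- The growth table of lex segments outside the monomial complete intersection. -/
def phi (d u : ℕ) : ℕ :=
  match d with
  | 0 => ([0, 3] : List ℕ).getD u 3
  | 1 => ([0, 3, 5, 6] : List ℕ).getD u 6
  | 2 => ([0, 2, 4, 5, 6, 7, 7] : List ℕ).getD u 7
  | 3 => ([0, 2, 3, 4, 5, 5, 6, 6] : List ℕ).getD u 6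
  | 4 => ([0, 1, 2, 2, 3, 3, 3] : List ℕ).getD u 3
  | 5 => ([0, 1, 1, 1] : List ℕ).getD u 1
  | _ => 0

theorem Fd_low (hf : IsRegCubic f) {n : ℕ} (hn : n < 3) : finrank K (Fd f n) = 0 := by
  have h : Fd f n = ⊥ := by
    rw [eq_bot_iff]
    intro p hp
    rw [mem_Fd] at hp
    exact (Submodule.mem_bot K).mpr (Fid_low hf hp.2 hn hp.1)
  rw [h, finrank_bot]

/-- The low degree growth inequality. -/
theorem lowdeg (hf : IsRegCubic f) {j : ℕ} (hj : j ≤ 2) {Y : Submodule K (Pol K)}
    (hY : Y ≤ Sd K j) :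
    finrank K (Fd f (j + 1)) + phi j (finrank K Y) ≤ finrank K ↥(up Y ⊔ Fd f (j + 1)) := by
  haveI := finDim hY
  haveI := finDim (up_le hY)
  have hle := finrank_le_of_le hY
  rw [finrank_Sd] at hle
  have hupT : finrank K (up Y) ≤ finrank K ↥(up Y ⊔ Fd f (j + 1)) :=
    finrank_le_of_le le_sup_left
  have hFT : finrank K (Fd f (j + 1)) ≤ finrank K ↥(up Y ⊔ Fd f (j + 1)) :=
    finrank_le_of_le le_sup_right
  interval_cases j
  · rw [Fd_low hf (by norm_num), zero_add]
    norm_num [Nat.choose] at hle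
    generalize hu : finrank K Y = u at *
    interval_cases u
    · simp [phi]
    · have := up_ge_three hY (by omega)
      simp only [phi, List.getD_cons_succ, List.getD_cons_zero]
      omega
  · rw [Fd_low hf (by norm_num), zero_add]
    norm_num [Nat.choose] at hle
    generalize hu : finrank K Y = u at *
    interval_cases u
    · simp [phi]
    · have := up_ge_three hY (by omega)
      simp only [phi, List.getD_cons_succ, List.getD_cons_zero]
      omega
    · have := up_ge_five hY (by omega)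
      simp only [phi, List.getD_cons_succ, List.getD_cons_zero]
      omega
    · have := up_ge_six hY (by omega)
      simp only [phi, List.getD_cons_succ, List.getD_cons_zero]
      omega
  · have h3 : finrank K (Fd f (2 + 1)) = 3 := finrank_F3 hf
    rw [h3] at hFT ⊢
    norm_num [Nat.choose] at hle
    obtain ⟨u, hu⟩ : ∃ u, finrank K Y = u := ⟨_, rfl⟩
    rw [hu] at hle ⊢
    interval_cases u
    · simpa [phi] using hFT
    · have := T_u1 hf hY (by omega)
      simp only [phi, List.getD_cons_succ, List.getD_cons_zero]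
      exact this
    · have := T_u2 hf hY (by omega)
      simp only [phi, List.getD_cons_succ, List.getD_cons_zero]
      exact this
    · have := T_u3 hf hY (by omega)
      simp only [phi, List.getD_cons_succ, List.getD_cons_zero]
      exact this
    · have := T_u4 hf hY (by omega)
      simp only [phi, List.getD_cons_succ, List.getD_cons_zero]
      exact this
    · have := T_u5 hf hY (by omega)
      simp only [phi, List.getD_cons_succ, List.getD_cons_zero]
      exact this
    · have := T_u5 hf hY (by omega)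
      simp only [phi, List.getD_cons_succ, List.getD_cons_zero]
      exact this

/-- The degree `d` part of an ideal. -/
noncomputable def Id (I : Ideal (Pol K)) (d : ℕ) : Submodule K (Pol K) :=
  (I.restrictScalars K) ⊓ Sd K d

theorem mem_Id {I : Ideal (Pol K)} {d : ℕ} {p : Pol K} : p ∈ Id I d ↔ p ∈ I ∧ p.IsHomogeneous d := by
  simp [Id, Submodule.mem_inf]

theorem Id_le (I : Ideal (Pol K)) (d : ℕ) : Id I d ≤ Sd K d := inf_le_right

instance instFiniteId (I : Ideal (Pol K)) (d : ℕ) : FiniteDimensional K (Id I d) :=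
  Submodule.finiteDimensional_of_le (Id_le I d)

theorem Fd_le_Id {I : Ideal (Pol K)} (hI : ∀ i, f i ∈ I) (d : ℕ) : Fd f d ≤ Id I d := by
  intro p hp
  rw [mem_Fd] at hp
  rw [mem_Id]
  refine ⟨?_, hp.2⟩
  have h : Fid f ≤ I := by
    rw [Fid, Ideal.span_le]
    rintro _ ⟨i, rfl⟩
    exact hI i
  exact h hp.1

theorem up_Id_le (I : Ideal (Pol K)) (d : ℕ) : up (Id I d) ≤ Id I (d + 1) := by
  refine Submodule.mul_le.mpr fun l hl q hq => ?_
  rw [mem_Id] at hq ⊢
  refine ⟨Ideal.mul_mem_left _ _ hq.1, ?_⟩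
  have h1 : l.IsHomogeneous 1 := hl
  have h2 := hq.2.mul h1
  rwa [mul_comm] at h2

/-- The step in low degrees. -/
theorem step_low (hf : IsRegCubic f) {I : Ideal (Pol K)} (hI : ∀ i, f i ∈ I) {d : ℕ} (hd : d ≤ 2) :
    finrank K (Fd f (d + 1)) + phi d (finrank K (Id I d)) ≤ finrank K (Id I (d + 1)) := by
  have h1 := lowdeg hf hd (Id_le I d)
  have h2 : up (Id I d) ⊔ Fd f (d + 1) ≤ Id I (d + 1) := sup_le (up_Id_le I d) (Fd_le_Id hI _)
  have h3 := finrank_le_of_le h2
  omega

/-- The step in high degrees, by duality. -/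
theorem step_high (hf : IsRegCubic f) {I : Ideal (Pol K)} (hI : ∀ i, f i ∈ I) {d j : ℕ}
    (hdj : j + d = 5) (hj : j ≤ 2) :
    ∃ y z : ℕ, y + finrank K (Id I (d + 1)) = finrank K (Sd K j) + finrank K (Fd f (d + 1)) ∧
      z + finrank K (Id I d) = finrank K (Sd K (j + 1)) + finrank K (Fd f d) ∧
      finrank K (Fd f (j + 1)) + phi j y ≤ z := by
  obtain ⟨τ, hτ⟩ := exists_tau hf
  refine ⟨finrank K (perp τ j (Id I (d + 1))), finrank K (perp τ (j + 1) (Id I d)), ?_, ?_, ?_⟩
  · exact finrank_perp hf hτ (by omega) (Fd_le_Id hI _) (Id_le I _)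
  · exact finrank_perp hf hτ (by omega) (Fd_le_Id hI _) (Id_le I _)
  · have h1 := lowdeg hf hj (perp_le τ j (Id I (d + 1)))
    have h2 : up (perp τ j (Id I (d + 1))) ⊔ Fd f (j + 1) ≤ perp τ (j + 1) (Id I d) := by
      refine sup_le ?_ ?_
      · refine Submodule.mul_le.mpr fun l hl b hb => ?_
        rw [mem_perp] at hb ⊢
        refine ⟨?_, fun c hc => ?_⟩
        · have h3 : l.IsHomogeneous 1 := hl
          have h4 : b.IsHomogeneous j := hb.1
          have h5 := h4.mul h3
          rw [mul_comm] at h5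
          exact h5
        · have h3 := hb.2 (l * c) (up_Id_le I d (mul_mem_up hl hc))
          rw [← h3]
          congr 1
          ring
      · intro g hg
        rw [mem_Fd] at hg
        rw [mem_perp]
        refine ⟨hg.2, fun c hc => ?_⟩
        rw [mem_Id] at hc
        refine (hτ _ ?_).mpr (Ideal.mul_mem_right _ _ hg.1)
        have h3 := hg.2.mul hc.2
        rwa [show j + 1 + d = 6 by omega] at h3
    haveI := finDim (perp_le τ (j + 1) (Id I d))
    have h3 := finrank_le_of_le h2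
    omega

/-- The dimension above the complete intersection. -/
noncomputable def qq (f : Fin 3 → Pol K) (I : Ideal (Pol K)) (d : ℕ) : ℕ :=
  finrank K (Id I d) - finrank K (Fd f d)

theorem num3 : ∀ Q₀ ∈ Finset.range 8, ∀ Q₁ ∈ Finset.range 7,
    3 + phi 2 (6 - Q₁) + Q₀ ≤ 10 → phi 3 Q₀ ≤ Q₁ := by decide

theorem num4 : ∀ Q₀ ∈ Finset.range 7, ∀ Q₁ ∈ Finset.range 4,
    phi 1 (3 - Q₁) + Q₀ ≤ 6 → phi 4 Q₀ ≤ Q₁ := by decide

theorem num5 : ∀ Q₀ ∈ Finset.range 4, ∀ Q₁ ∈ Finset.range 2,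
    phi 0 (1 - Q₁) + Q₀ ≤ 3 → phi 5 Q₀ ≤ Q₁ := by decide

theorem finrank_Fd_le_Id {I : Ideal (Pol K)} (hI : ∀ i, f i ∈ I) (d : ℕ) :
    finrank K (Fd f d) ≤ finrank K (Id I d) := finrank_le_of_le (Fd_le_Id hI d)

theorem finrank_Id_le (I : Ideal (Pol K)) (d : ℕ) :
    finrank K (Id I d) ≤ (d + 2).choose 2 := by
  have := finrank_le_of_le (Id_le I d)
  rwa [finrank_Sd] at this

/-- The growth inequalities. -/
theorem growth (hf : IsRegCubic f) {I : Ideal (Pol K)} (hI : ∀ i, f i ∈ I) {d : ℕ} (hd : d ≤ 5) :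
    phi d (qq f I d) ≤ qq f I (d + 1) := by
  have hle := finrank_Fd_le_Id hI d
  have hle' := finrank_Fd_le_Id hI (d + 1)
  have hub := finrank_Id_le I d
  have hub' := finrank_Id_le I (d + 1)
  unfold qq
  interval_cases d
  · have h := step_low hf hI (d := 0) (by norm_num)
    rw [Fd_low hf (by norm_num)] at hle ⊢
    rw [Fd_low hf (by norm_num)] at hle' h ⊢
    simpa using h
  · have h := step_low hf hI (d := 1) (by norm_num)
    rw [Fd_low hf (by norm_num)] at hle ⊢
    rw [Fd_low hf (by norm_num)] at hle' h ⊢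
    simpa using h
  · have h := step_low hf hI (d := 2) (by norm_num)
    rw [Fd_low hf (by norm_num)] at hle ⊢
    have h3 : finrank K (Fd f (2 + 1)) = 3 := finrank_F3 hf
    rw [h3] at hle' h ⊢
    simp only [Nat.sub_zero]
    omega
  · obtain ⟨y, z, hy, hz, h⟩ := step_high hf hI (d := 3) (j := 2) (by norm_num) (by norm_num)
    have h3 : finrank K (Fd f (2 + 1)) = 3 := finrank_F3 hf
    have h3' : finrank K (Fd f 3) = 3 := finrank_F3 hf
    have h4 : finrank K (Fd f (3 + 1)) = 9 := finrank_F4 hf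
    rw [h3] at h
    rw [h4] at hle' hy ⊢
    rw [h3'] at hle hz ⊢
    rw [finrank_Sd] at hy hz
    norm_num [Nat.choose] at hy hz hub hub'
    obtain ⟨Q₀, hQ₀⟩ : ∃ Q, Q = finrank K (Id I 3) - 3 := ⟨_, rfl⟩
    obtain ⟨Q₁, hQ₁⟩ : ∃ Q, Q = finrank K (Id I (3 + 1)) - 9 := ⟨_, rfl⟩
    rw [← hQ₀, ← hQ₁]
    have hy' : y = 6 - Q₁ := by omega
    rw [hy'] at h
    exact num3 Q₀ (Finset.mem_range.mpr (by omega)) Q₁ (Finset.mem_range.mpr (by omega)) (by omega)
  · obtain ⟨y, z, hy, hz, h⟩ := step_high hf hI (d := 4) (j := 1) (by norm_num) (by norm_num)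
    have h3 : finrank K (Fd f (1 + 1)) = 0 := Fd_low hf (by norm_num)
    have h3' : finrank K (Fd f 4) = 9 := finrank_F4 hf
    have h4 : finrank K (Fd f (4 + 1)) = 18 := finrank_F5 hf
    rw [h3] at h
    rw [h4] at hle' hy ⊢
    rw [h3'] at hle hz ⊢
    rw [finrank_Sd] at hy hz
    norm_num [Nat.choose] at hy hz hub hub'
    obtain ⟨Q₀, hQ₀⟩ : ∃ Q, Q = finrank K (Id I 4) - 9 := ⟨_, rfl⟩
    obtain ⟨Q₁, hQ₁⟩ : ∃ Q, Q = finrank K (Id I (4 + 1)) - 18 := ⟨_, rfl⟩
    rw [← hQ₀, ← hQ₁]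
    have hy' : y = 3 - Q₁ := by omega
    rw [hy'] at h
    exact num4 Q₀ (Finset.mem_range.mpr (by omega)) Q₁ (Finset.mem_range.mpr (by omega)) (by omega)
  · obtain ⟨y, z, hy, hz, h⟩ := step_high hf hI (d := 5) (j := 0) (by norm_num) (by norm_num)
    have h3 : finrank K (Fd f (0 + 1)) = 0 := Fd_low hf (by norm_num)
    have h3' : finrank K (Fd f 5) = 18 := finrank_F5 hf
    have h4 : finrank K (Fd f (5 + 1)) = 27 := finrank_F6 hf
    rw [h3] at h
    rw [h4] at hle' hy ⊢
    rw [h3'] at hle hz ⊢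
    rw [finrank_Sd] at hy hz
    norm_num [Nat.choose] at hy hz hub hub'
    obtain ⟨Q₀, hQ₀⟩ : ∃ Q, Q = finrank K (Id I 5) - 18 := ⟨_, rfl⟩
    obtain ⟨Q₁, hQ₁⟩ : ∃ Q, Q = finrank K (Id I (5 + 1)) - 27 := ⟨_, rfl⟩
    rw [← hQ₀, ← hQ₁]
    have hy' : y = 1 - Q₁ := by omega
    rw [hy'] at h
    exact num5 Q₀ (Finset.mem_range.mpr (by omega)) Q₁ (Finset.mem_range.mpr (by omega)) (by omega)

end Vale.Agent.P200
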