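import Vale.Agent.P200.Socle

/-!
# The Hilbert function of the complete intersection
-/

namespace Vale.Agent.P200

open MvPolynomial Module

variable {K : Type*} [Field K] {f : Fin 3 → Pol K}

/-- The degree `d` part of the ideal generated by the forms. -/
noncomputable def Fd (f : Fin 3 → Pol K) (d : ℕ) : Submodule K (Pol K) :=
  ((Fid f).restrictScalars K) ⊓ Sd K d

theorem mem_Fd {d : ℕ} {p : Pol K} : p ∈ Fd f d ↔ p ∈ Fid f ∧ p.IsHomogeneous d := by
  simp [Fd, Submodule.mem_inf]

theorem Fd_le (d : ℕ) : Fd f d ≤ Sd K d := inf_le_right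

instance instFiniteFd (d : ℕ) : FiniteDimensional K (Fd f d) :=
  Submodule.finiteDimensional_of_le (Fd_le d)

/-- Combination with homogeneous coefficients. -/
noncomputable def mu (f : Fin 3 → Pol K) (n : ℕ) : (Fin 3 → Sd K n) →ₗ[K] Pol K where
  toFun c := ∑ i, (c i : Pol K) * f i
  map_add' c d := by
    simp [add_mul, Finset.sum_add_distrib]
  map_smul' r c := by
    simp [Finset.smul_sum, smul_mul_assoc]

theorem mu_apply (n : ℕ) (c : Fin 3 → Sd K n) : mu f n c = ∑ i, (c i : Pol K) * f i := rfl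

theorem range_mu (hf : IsRegCubic f) (n : ℕ) : LinearMap.range (mu f n) = Fd f (n + 3) := by
  ext p
  constructor
  · rintro ⟨c, rfl⟩
    rw [mem_Fd, mu_apply]
    refine ⟨comb_mem_Fid (fun i => (c i : Pol K)), ?_⟩
    have hc : ∀ i, ((c i : Pol K)).IsHomogeneous n := fun i => (c i).2
    exact IsHomogeneous.sum Finset.univ _ (n + 3) fun i _ => (hc i).mul (hf.hom i)
  · intro hp
    rw [mem_Fd] at hp
    obtain ⟨c, hc, rfl⟩ := Fid_comb hf hp.2 hp.1
    exact ⟨fun i => ⟨c i, hc i⟩, rfl⟩

theorem finrank_dom (n : ℕ) : finrank K (Fin 3 → Sd K n) = 3 * finrank K (Sd K n) := by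
  rw [Module.finrank_pi_fintype]
  simp

/-- Below degree six there are no relations. -/
theorem mu_injective (hf : IsRegCubic f) {n : ℕ} (hn : n < 3) : Function.Injective (mu f n) := by
  rw [injective_iff_map_eq_zero]
  intro c hc
  rw [mu_apply] at hc
  obtain ⟨w, -, hw, h0, h1, h2⟩ := H1 hf (fun i => (c i).2) hc
  have hw0 := hw hn
  funext i
  apply Subtype.ext
  fin_cases i
  · simpa [hw0] using h0
  · simpa [hw0] using h1
  · simpa [hw0] using h2

/-- The map `w ↦ f × w`. -/
noncomputable def cross (f : Fin 3 → Pol K) (hf : IsRegCubic f) (m : ℕ) :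
    (Fin 3 → Sd K m) →ₗ[K] (Fin 3 → Sd K (m + 3)) where
  toFun w := ![⟨w 2 * f 1 - w 1 * f 2, ((w 2).2.mul (hf.hom 1)).sub ((w 1).2.mul (hf.hom 2))⟩,
    ⟨w 0 * f 2 - w 2 * f 0, ((w 0).2.mul (hf.hom 2)).sub ((w 2).2.mul (hf.hom 0))⟩,
    ⟨w 1 * f 0 - w 0 * f 1, ((w 1).2.mul (hf.hom 0)).sub ((w 0).2.mul (hf.hom 1))⟩]
  map_add' v w := by
    funext i
    apply Subtype.ext
    fin_cases i <;> simp <;> ring
  map_smul' r v := by
    funext i
    apply Subtype.ext
    fin_cases i <;> simp [smul_sub, smul_mul_assoc]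

theorem ker_mu_le (hf : IsRegCubic f) (m : ℕ) :
    LinearMap.ker (mu f (m + 3)) ≤ LinearMap.range (cross f hf m) := by
  intro c hc
  rw [LinearMap.mem_ker, mu_apply] at hc
  obtain ⟨w, hwh, -, h0, h1, h2⟩ := H1 hf (fun i => (c i).2) hc
  have hwh' : ∀ i, (w i).IsHomogeneous m := fun i => by simpa using hwh i
  refine ⟨fun i => ⟨w i, hwh' i⟩, ?_⟩
  funext i
  apply Subtype.ext
  fin_cases i
  · simp [cross, h0, mul_comm]
  · simp [cross, h1, mul_comm]
  · simp [cross, h2, mul_comm]

theorem cross_injective (hf : IsRegCubic f) {m : ℕ} (hm : m < 3) :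
    Function.Injective (cross f hf m) := by
  rw [injective_iff_map_eq_zero]
  intro w hw
  have h0 := congrArg Subtype.val (congrFun hw 0)
  have h1 := congrArg Subtype.val (congrFun hw 1)
  have h2 := congrArg Subtype.val (congrFun hw 2)
  simp [cross] at h0 h1 h2
  have := H2_low hf (w := fun i => (w i : Pol K)) hm (fun i => (w i).2)
    (by linear_combination h2) (by linear_combination h1)
  funext i
  apply Subtype.ext
  simpa using this i

theorem cross_mem_ker (hf : IsRegCubic f) (m : ℕ) :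
    LinearMap.range (cross f hf m) ≤ LinearMap.ker (mu f (m + 3)) := by
  rintro _ ⟨w, rfl⟩
  rw [LinearMap.mem_ker, mu_apply, Fin.sum_univ_three]
  simp [cross]
  ring

theorem finrank_Fd_low (hf : IsRegCubic f) {n : ℕ} (hn : n < 3) :
    finrank K (Fd f (n + 3)) = 3 * finrank K (Sd K n) := by
  rw [← range_mu hf, LinearMap.finrank_range_of_inj (mu_injective hf hn), finrank_dom]

theorem finrank_F3 (hf : IsRegCubic f) : finrank K (Fd f 3) = 3 := by
  have := finrank_Fd_low hf (n := 0) (by norm_num)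
  rw [finrank_Sd] at this
  simpa using this

theorem finrank_F4 (hf : IsRegCubic f) : finrank K (Fd f 4) = 9 := by
  have := finrank_Fd_low hf (n := 1) (by norm_num)
  rw [finrank_Sd] at this
  simpa [Nat.choose] using this

theorem finrank_F5 (hf : IsRegCubic f) : finrank K (Fd f 5) = 18 := by
  have := finrank_Fd_low hf (n := 2) (by norm_num)
  rw [finrank_Sd] at this
  simpa [Nat.choose] using this

theorem finrank_F6 (hf : IsRegCubic f) : finrank K (Fd f 6) = 27 := by
  have h1 := LinearMap.finrank_range_add_finrank_ker (mu f 3)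
  rw [range_mu hf, finrank_dom, finrank_Sd] at h1
  have h6 : finrank K (Fd f (3 + 3)) = finrank K (Fd f 6) := rfl
  rw [h6] at h1
  have h2 : LinearMap.ker (mu f (0 + 3)) = LinearMap.range (cross f hf 0) :=
    le_antisymm (ker_mu_le hf 0) (cross_mem_ker hf 0)
  have h3 : finrank K (LinearMap.ker (mu f 3)) = 3 := by
    have h4 : finrank K (LinearMap.ker (mu f (0 + 3))) = finrank K (Fin 3 → Sd K 0) := by
      rw [h2, LinearMap.finrank_range_of_inj (cross_injective hf (by norm_num))]
    rw [finrank_dom, finrank_Sd] at h4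
    simpa using h4
  rw [h3] at h1
  norm_num [Nat.choose] at h1
  omega

theorem F7_top (hf : IsRegCubic f) : Fd f 7 = Sd K 7 := by
  have h1 := LinearMap.finrank_range_add_finrank_ker (mu f 4)
  rw [range_mu hf, finrank_dom, finrank_Sd] at h1
  have h6 : finrank K (Fd f (4 + 3)) = finrank K (Fd f 7) := rfl
  rw [h6] at h1
  have h3 : finrank K (LinearMap.ker (mu f 4)) ≤ 9 := by
    have h4 : finrank K (LinearMap.ker (mu f (1 + 3))) ≤ finrank K (Fin 3 → Sd K 1) :=
      (Submodule.finrank_mono (ker_mu_le hf 1)).trans (LinearMap.finrank_range_le _)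
    rw [finrank_dom, finrank_Sd] at h4
    simpa [Nat.choose] using h4
  have h5 : finrank K (Sd K 7) ≤ finrank K (Fd f 7) := by
    rw [finrank_Sd]
    norm_num [Nat.choose] at h1 ⊢
    omega
  exact Submodule.eq_of_le_of_finrank_le (Fd_le 7) h5

/-- Every form of degree seven lies in the ideal. -/
theorem top_mem (hf : IsRegCubic f) {p : Pol K} (hp : p.IsHomogeneous 7) : p ∈ Fid f := by
  have : p ∈ Fd f 7 := by
    rw [F7_top hf]
    exact hp
  exact (mem_Fd.mp this).1

end Vale.Agent.P200
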