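import Vale.Agent.P200.Basic

/-!
# Koszul exactness for regular sequences of length three
-/

namespace Vale.Agent.P200

open MvPolynomial Module

section Generic

variable {R : Type*} [CommRing R] {r₀ r₁ r₂ : R}

theorem koszul1 (h₀ : ∀ a, a * r₀ = 0 → a = 0)
    (h₁ : ∀ a, a * r₁ ∈ Ideal.span {r₀} → a ∈ Ideal.span {r₀})
    (h₂ : ∀ a, a * r₂ ∈ Ideal.span {r₀, r₁} → a ∈ Ideal.span {r₀, r₁})
    {c₀ c₁ c₂ : R} (h : c₀ * r₀ + c₁ * r₁ + c₂ * r₂ = 0) :
    ∃ w₀ w₁ w₂, c₀ = r₁ * w₂ - r₂ * w₁ ∧ c₁ = r₂ * w₀ - r₀ * w₂ ∧ c₂ = r₀ * w₁ - r₁ * w₀ := by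
  have h3 : c₂ ∈ Ideal.span {r₀, r₁} := by
    apply h₂
    rw [Ideal.mem_span_pair]
    exact ⟨-c₀, -c₁, by linear_combination -h⟩
  obtain ⟨α, β, hαβ⟩ := Ideal.mem_span_pair.mp h3
  have h4 : c₁ + β * r₂ ∈ Ideal.span {r₀} := by
    apply h₁
    rw [Ideal.mem_span_singleton']
    refine ⟨-(c₀ + α * r₂), ?_⟩
    rw [← hαβ] at h
    linear_combination -h
  obtain ⟨γ, hγ⟩ := Ideal.mem_span_singleton'.mp h4
  have h5 : c₀ + α * r₂ + γ * r₁ = 0 := by
    apply h₀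
    rw [← hαβ] at h
    linear_combination h + r₁ * hγ
  exact ⟨-β, α, -γ, by linear_combination h5, by linear_combination -hγ, by linear_combination -hαβ⟩

theorem koszul2 (h₀ : ∀ a, a * r₀ = 0 → a = 0)
    (h₁ : ∀ a, a * r₁ ∈ Ideal.span {r₀} → a ∈ Ideal.span {r₀})
    {w₀ w₁ w₂ : R} (e₂ : r₀ * w₁ = r₁ * w₀) (e₁ : r₂ * w₀ = r₀ * w₂) :
    ∃ g, w₀ = g * r₀ ∧ w₁ = g * r₁ ∧ w₂ = g * r₂ := by
  have h3 : w₀ ∈ Ideal.span {r₀} := by
    apply h₁
    rw [Ideal.mem_span_singleton']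
    exact ⟨w₁, by linear_combination e₂⟩
  obtain ⟨g, hg⟩ := Ideal.mem_span_singleton'.mp h3
  refine ⟨g, hg.symm, ?_, ?_⟩
  · have : w₁ - g * r₁ = 0 := by
      apply h₀
      rw [← hg] at e₂
      linear_combination e₂
    linear_combination this
  · have : w₂ - g * r₂ = 0 := by
      apply h₀
      rw [← hg] at e₁
      linear_combination -e₁
    linear_combination this

end Generic

variable {K : Type*} [Field K]

/-- The variables form a regular sequence (first condition). -/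
theorem regX₀ : ∀ a : Pol K, a * X 0 = 0 → a = 0 := fun a h =>
  (mul_eq_zero.mp h).resolve_right (X_ne_zero 0)

theorem regX₁ : ∀ a : Pol K, a * X 1 ∈ Ideal.span {(X 0 : Pol K)} →
    a ∈ Ideal.span {(X 0 : Pol K)} := by
  intro a h
  rw [Ideal.mem_span_singleton] at h ⊢
  rcases (X_prime (i := (0 : Fin 3)) (R := K) (σ := Fin 3)).2.2 _ _ h with h1 | h1
  · exact h1
  · exfalso
    have := (X_dvd_X (R := K) (i := (0 : Fin 3)) (j := 1)).mp h1
    exact absurd this (by decide)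

theorem regX₂ : ∀ a : Pol K, a * X 2 ∈ Ideal.span {(X 0 : Pol K), X 1} →
    a ∈ Ideal.span {(X 0 : Pol K), X 1} := by
  intro a h
  have hset : ({(X 0 : Pol K), X 1} : Set (Pol K)) = X '' ({0, 1} : Set (Fin 3)) := by
    simp [Set.image_pair]
  rw [hset, mem_ideal_span_X_image] at h ⊢
  intro m hm
  have h1 : m + Finsupp.single 2 1 ∈ (a * X 2).support := by
    rw [support_mul_X, Finset.mem_map]
    exact ⟨m, hm, rfl⟩
  obtain ⟨i, hi, hi2⟩ := h _ h1
  refine ⟨i, hi, ?_⟩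
  have hi' : i ≠ 2 := by
    rcases hi with rfl | hi
    · decide
    · rw [Set.mem_singleton_iff.mp hi]; decide
  simpa [Finsupp.single_apply, hi'.symm] using hi2

/-- Regular sequences of three cubics. -/
structure IsRegCubic (f : Fin 3 → Pol K) : Prop where
  hom : ∀ i, (f i).IsHomogeneous 3
  reg₀ : ∀ a : Pol K, a * f 0 = 0 → a = 0
  reg₁ : ∀ a : Pol K, a * f 1 ∈ Ideal.span {f 0} → a ∈ Ideal.span {f 0}
  reg₂ : ∀ a : Pol K, a * f 2 ∈ Ideal.span {f 0, f 1} → a ∈ Ideal.span {f 0, f 1}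

variable {f : Fin 3 → Pol K}

theorem IsRegCubic.f0_ne (hf : IsRegCubic f) : f 0 ≠ 0 := by
  intro h
  have := hf.reg₀ 1 (by rw [h, mul_zero])
  exact one_ne_zero this

/-- Exactness on the left with homogeneous coefficients. -/
theorem H1 (hf : IsRegCubic f) {m : ℕ} {c : Fin 3 → Pol K} (hc : ∀ i, (c i).IsHomogeneous m)
    (h : ∑ i, c i * f i = 0) :
    ∃ w : Fin 3 → Pol K, (∀ i, (w i).IsHomogeneous (m - 3)) ∧ (m < 3 → ∀ i, w i = 0) ∧
      c 0 = f 1 * w 2 - f 2 * w 1 ∧ c 1 = f 2 * w 0 - f 0 * w 2 ∧ c 2 = f 0 * w 1 - f 1 * w 0 := by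
  rw [Fin.sum_univ_three] at h
  obtain ⟨w₀, w₁, w₂, h0, h1, h2⟩ := koszul1 hf.reg₀ hf.reg₁ hf.reg₂ h
  by_cases hm : m < 3
  · -- all coefficients vanish
    have hlow : ∀ (u a b : Pol K) (i j : Fin 3), u.IsHomogeneous m → u = f i * a - f j * b → u = 0 := by
      intro u a b i j hu he
      rw [← homogeneousComponent_eq_self hu, he, map_sub, mul_comm (f i), mul_comm (f j),
        hc_mul_lt (hf.hom i) _ hm, hc_mul_lt (hf.hom j) _ hm, sub_zero]
    refine ⟨0, ?_, ?_, ?_, ?_, ?_⟩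
    · intro i
      exact isHomogeneous_zero _ _ _
    · intro _ _
      rfl
    · simpa using hlow _ _ _ _ _ (hc 0) h0
    · simpa using hlow _ _ _ _ _ (hc 1) h1
    · simpa using hlow _ _ _ _ _ (hc 2) h2
  · obtain ⟨n, rfl⟩ : ∃ n, m = n + 3 := ⟨m - 3, by omega⟩
    have hhigh : ∀ (u a b : Pol K) (i j : Fin 3), u.IsHomogeneous (n + 3) → u = f i * a - f j * b →
        u = f i * homogeneousComponent n a - f j * homogeneousComponent n b := by
      intro u a b i j hu he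
      rw [← homogeneousComponent_eq_self hu, he, map_sub, mul_comm (f i), mul_comm (f j),
        hc_mul (hf.hom i), hc_mul (hf.hom j), mul_comm (f i), mul_comm (f j)]
    refine ⟨fun i => homogeneousComponent n (![w₀, w₁, w₂] i), ?_, ?_, ?_, ?_, ?_⟩
    · intro i
      simpa using homogeneousComponent_isHomogeneous n _
    · intro hh
      omega
    · exact hhigh _ _ _ _ _ (hc 0) h0
    · exact hhigh _ _ _ _ _ (hc 1) h1
    · exact hhigh _ _ _ _ _ (hc 2) h2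

/-- Exactness in the middle. -/
theorem H2 (hf : IsRegCubic f) {w : Fin 3 → Pol K}
    (e₂ : f 0 * w 1 = f 1 * w 0) (e₁ : f 2 * w 0 = f 0 * w 2) :
    ∃ g, w 0 = g * f 0 ∧ w 1 = g * f 1 ∧ w 2 = g * f 2 :=
  koszul2 hf.reg₀ hf.reg₁ e₂ e₁

/-- Exactness in the middle, in low degree. -/
theorem H2_low (hf : IsRegCubic f) {w : Fin 3 → Pol K} {m : ℕ} (hm : m < 3)
    (hw : ∀ i, (w i).IsHomogeneous m)
    (e₂ : f 0 * w 1 = f 1 * w 0) (e₁ : f 2 * w 0 = f 0 * w 2) : ∀ i, w i = 0 := by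
  obtain ⟨g, h0, h1, h2⟩ := H2 hf e₂ e₁
  have hg : g = 0 := by
    by_contra hg
    have hne : g * f 0 ≠ 0 := mul_ne_zero hg hf.f0_ne
    rw [← h0] at hne
    have h3 := (hw 0).totalDegree hne
    rw [h0, totalDegree_mul_of_isDomain hg hf.f0_ne, (hf.hom 0).totalDegree hf.f0_ne] at h3
    omega
  intro i
  fin_cases i
  · simpa [hg] using h0
  · simpa [hg] using h1
  · simpa [hg] using h2

end Vale.Agent.P200
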