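import Vale.Agent.P200.HF

/-!
# Linear forms, their divisibility, and quadrics
-/

namespace Vale.Agent.P200

open MvPolynomial Module

variable {K : Type*} [Field K]

/-- Nonzero linear forms. -/
structure Lin (l : Pol K) : Prop where
  hom : l.IsHomogeneous 1
  ne : l ≠ 0

/-- A quotient of homogeneous polynomials is homogeneous. -/
theorem quot_hom {b c : Pol K} {α β : ℕ} (hb : b.IsHomogeneous α) (hb0 : b ≠ 0)
    (h : (c * b).IsHomogeneous (β + α)) : c.IsHomogeneous β := by
  have h1 : ∀ n, n ≠ β → homogeneousComponent n c = 0 := by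
    intro n hn
    have h2 := hc_mul hb c n
    rw [homogeneousComponent_of_mem h, if_neg (by omega)] at h2
    exact (mul_eq_zero.mp h2.symm).resolve_right hb0
  have h3 : c = homogeneousComponent β c := by
    conv_lhs => rw [← sum_homogeneousComponent c]
    by_cases hβ : β ∈ Finset.range (c.totalDegree + 1)
    · rw [Finset.sum_eq_single_of_mem β hβ]
      intro n _ hn
      exact h1 n hn
    · rw [Finset.sum_eq_zero, homogeneousComponent_eq_zero]
      · simp only [Finset.mem_range] at hβ
        omega
      · intro n hn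
        refine h1 n ?_
        rintro rfl
        exact hβ hn
  rw [h3]
  exact homogeneousComponent_isHomogeneous β c

theorem const_of_hom0 {c : Pol K} (h : c.IsHomogeneous 0) : ∃ r : K, c = C r := by
  refine ⟨_, totalDegree_eq_zero_iff_eq_C.mp ?_⟩
  exact (totalDegree_zero_iff_isHomogeneous (p := c)).mpr h

theorem isUnit_of_const {r : K} (hr : r ≠ 0) : IsUnit (C r : Pol K) :=
  (isUnit_iff_ne_zero.mpr hr).map C

theorem Lin.irreducible {l : Pol K} (hl : Lin l) : Irreducible l := by
  have hd : l.totalDegree = 1 := hl.hom.totalDegree hl.ne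
  refine ⟨?_, ?_⟩
  · intro H
    have := (MvPolynomial.isUnit_iff_totalDegree_of_isReduced.mp H).2
    omega
  · intro a b hab
    have ha0 : a ≠ 0 := by
      rintro rfl
      exact hl.ne (by simpa using hab)
    have hb0 : b ≠ 0 := by
      rintro rfl
      exact hl.ne (by simpa using hab)
    have h1 : a.totalDegree + b.totalDegree = 1 := by
      rw [← totalDegree_mul_of_isDomain ha0 hb0, ← hab, hd]
    have key : ∀ p : Pol K, p ≠ 0 → p.totalDegree = 0 → IsUnit p := by
      intro p hp0 hp
      have hr := totalDegree_eq_zero_iff_eq_C.mp hp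
      rw [hr]
      apply isUnit_of_const
      intro h0
      rw [h0] at hr
      simp [hr] at hp0
    by_cases ha : a.totalDegree = 0
    · exact Or.inl (key a ha0 ha)
    · exact Or.inr (key b hb0 (by omega))

theorem Lin.prime {l : Pol K} (hl : Lin l) : Prime l := hl.irreducible.prime

/-- A linear form dividing a linear form is associated to it. -/
theorem Lin.dvd_symm {l m : Pol K} (hm : Lin m) (hl : Lin l) (h : m ∣ l) : l ∣ m := by
  obtain ⟨e, he⟩ := h
  have h0 : e.IsHomogeneous 0 := by
    refine quot_hom hm.hom hm.ne ?_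
    rw [mul_comm, ← he]
    simpa using hl.hom
  obtain ⟨r, rfl⟩ := const_of_hom0 h0
  have hr : r ≠ 0 := by
    rintro rfl
    exact hl.ne (by simpa [he])
  refine ⟨C r⁻¹, ?_⟩
  rw [he, mul_assoc, ← C_mul, mul_inv_cancel₀ hr]
  simp

/-- Dichotomy for quadrics. -/
theorem quad_dichotomy {q : Pol K} (hq : q.IsHomogeneous 2) (h0 : q ≠ 0) :
    Prime q ∨ ∃ a b : Pol K, Lin a ∧ Lin b ∧ q = a * b := by
  have hd : q.totalDegree = 2 := hq.totalDegree h0
  have hnu : ¬ IsUnit q := by
    intro H
    have := (MvPolynomial.isUnit_iff_totalDegree_of_isReduced.mp H).2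
    omega
  rcases irreducible_or_factor hnu with hi | ⟨a, b, ha, hb, hab⟩
  · exact Or.inl hi.prime
  right
  have ha0 : a ≠ 0 := by
    rintro rfl
    exact h0 (by simpa using hab)
  have hb0 : b ≠ 0 := by
    rintro rfl
    exact h0 (by simpa using hab)
  have h1 : a.totalDegree + b.totalDegree = 2 := by
    rw [← totalDegree_mul_of_isDomain ha0 hb0, ← hab, hd]
  have key : ∀ p : Pol K, ¬ IsUnit p → p ≠ 0 → p.totalDegree ≠ 0 := by
    intro p hp hp0 hpd
    obtain ⟨r, hr⟩ : ∃ r, p = C r := ⟨_, totalDegree_eq_zero_iff_eq_C.mp hpd⟩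
    apply hp
    rw [hr]
    apply isUnit_of_const
    rintro rfl
    simp [hr] at hp0
  have ha1 : a.totalDegree = 1 := by
    have := key a ha ha0
    have := key b hb hb0
    omega
  have hb1 : b.totalDegree = 1 := by omega
  have split : ∀ p : Pol K, p.totalDegree = 1 →
      p = homogeneousComponent 0 p + homogeneousComponent 1 p ∧ homogeneousComponent 1 p ≠ 0 := by
    intro p hp
    have h2 : p = homogeneousComponent 0 p + homogeneousComponent 1 p := by
      conv_lhs => rw [← sum_homogeneousComponent p, hp]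
      simp [Finset.sum_range_succ]
    refine ⟨h2, fun h3 => ?_⟩
    rw [h3, add_zero] at h2
    have h4 : p.IsHomogeneous 0 := by
      rw [h2]
      exact homogeneousComponent_isHomogeneous 0 p
    have := (totalDegree_zero_iff_isHomogeneous (p := p)).mpr h4
    omega
  obtain ⟨ea, ha1'⟩ := split a ha1
  obtain ⟨eb, hb1'⟩ := split b hb1
  refine ⟨homogeneousComponent 1 a, homogeneousComponent 1 b,
    ⟨homogeneousComponent_isHomogeneous 1 a, ha1'⟩,
    ⟨homogeneousComponent_isHomogeneous 1 b, hb1'⟩, ?_⟩
  -- compare components of degree two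
  have h3 : q = homogeneousComponent 2 q := (homogeneousComponent_eq_self hq).symm
  have h4 : homogeneousComponent 2 q = homogeneousComponent 2
      (homogeneousComponent 0 a * homogeneousComponent 0 b
        + homogeneousComponent 0 a * homogeneousComponent 1 b
        + homogeneousComponent 1 a * homogeneousComponent 0 b
        + homogeneousComponent 1 a * homogeneousComponent 1 b) := by
    congr 1
    rw [hab]
    conv_lhs => rw [ea, eb]
    ring
  rw [h3, h4, map_add, map_add, map_add]
  have t1 : homogeneousComponent 2 (homogeneousComponent 0 a * homogeneousComponent 0 b) = 0 := by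
    rw [homogeneousComponent_of_mem (((homogeneousComponent_isHomogeneous 0 a).mul
      (homogeneousComponent_isHomogeneous 0 b))), if_neg (by norm_num)]
  have t2 : homogeneousComponent 2 (homogeneousComponent 0 a * homogeneousComponent 1 b) = 0 := by
    rw [homogeneousComponent_of_mem (((homogeneousComponent_isHomogeneous 0 a).mul
      (homogeneousComponent_isHomogeneous 1 b))), if_neg (by norm_num)]
  have t3 : homogeneousComponent 2 (homogeneousComponent 1 a * homogeneousComponent 0 b) = 0 := by
    rw [homogeneousComponent_of_mem (((homogeneousComponent_isHomogeneous 1 a).mul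
      (homogeneousComponent_isHomogeneous 0 b))), if_neg (by norm_num)]
  have t4 : homogeneousComponent 2 (homogeneousComponent 1 a * homogeneousComponent 1 b)
      = homogeneousComponent 1 a * homogeneousComponent 1 b := by
    rw [homogeneousComponent_of_mem (((homogeneousComponent_isHomogeneous 1 a).mul
      (homogeneousComponent_isHomogeneous 1 b))), if_pos (by norm_num)]
  rw [t1, t2, t3, t4]
  ring

/-- Two quadrics without common linear factor. -/
def NoCommon (p q : Pol K) : Prop := ∀ l : Pol K, Lin l → l ∣ p → l ∣ q → False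

/-- The syzygies of two quadrics without common linear factor are trivial. -/
theorem syz_dvd {q₁ q₂ A B : Pol K} (h₁ : q₁.IsHomogeneous 2) (h₁0 : q₁ ≠ 0)
    (h₂ : q₂.IsHomogeneous 2) (hnp : ∀ r : K, q₂ ≠ C r * q₁)
    (hn : NoCommon q₁ q₂) (h : A * q₁ + B * q₂ = 0) : q₁ ∣ B := by
  have hd : q₁ ∣ B * q₂ := ⟨-A, by linear_combination h⟩
  rcases quad_dichotomy h₁ h₁0 with hp | ⟨a, b, ha, hb, rfl⟩
  · rcases hp.dvd_or_dvd hd with h3 | h3
    · exact h3
    · exfalso
      obtain ⟨e, he⟩ := h3
      have h0 : e.IsHomogeneous 0 := by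
        refine quot_hom h₁ h₁0 ?_
        rw [mul_comm, ← he]
        simpa using h₂
      obtain ⟨r, rfl⟩ := const_of_hom0 h0
      exact hnp r (by rw [he]; ring)
  · have h3 : a ∣ B := by
      rcases ha.prime.dvd_or_dvd (dvd_trans (dvd_mul_right a b) hd) with h3 | h3
      · exact h3
      · exact (hn a ha (dvd_mul_right a b) h3).elim
    obtain ⟨B₁, rfl⟩ := h3
    have h4 : b * A + B₁ * q₂ = 0 := by
      have : a * (b * A + B₁ * q₂) = 0 := by linear_combination h
      exact (mul_eq_zero.mp this).resolve_left ha.ne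
    have h5 : b ∣ B₁ := by
      have h6 : b ∣ B₁ * q₂ := ⟨-A, by linear_combination h4⟩
      rcases hb.prime.dvd_or_dvd h6 with h7 | h7
      · exact h7
      · exact (hn b hb (dvd_mul_left b a) h7).elim
    obtain ⟨B₂, rfl⟩ := h5
    exact ⟨B₂, by ring⟩

/-- Syzygies of bidegree two: form. -/
theorem syz_const {q₁ q₂ A B : Pol K} (h₁ : q₁.IsHomogeneous 2) (h₁0 : q₁ ≠ 0)
    (h₂ : q₂.IsHomogeneous 2) (hnp : ∀ r : K, q₂ ≠ C r * q₁)
    (hn : NoCommon q₁ q₂) (hB : B.IsHomogeneous 2) (h : A * q₁ + B * q₂ = 0) :
    ∃ e : K, B = C e * q₁ ∧ A = - (C e * q₂) := by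
  obtain ⟨E, hE⟩ := syz_dvd h₁ h₁0 h₂ hnp hn h
  have h0 : E.IsHomogeneous 0 := by
    refine quot_hom h₁ h₁0 ?_
    rw [mul_comm, ← hE]
    simpa using hB
  obtain ⟨r, rfl⟩ := const_of_hom0 h0
  refine ⟨r, by rw [hE]; ring, ?_⟩
  have : q₁ * (A + C r * q₂) = 0 := by
    rw [hE] at h
    linear_combination h
  have := (mul_eq_zero.mp this).resolve_left h₁0
  linear_combination this

end Vale.Agent.P200
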