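import Vale.Agent.P200.Growth
import Vale.Agent.P200.Defs

/-!
# Counting monomials
-/

namespace Vale.Agent.P200

open MvPolynomial Module

variable {K : Type*} [Field K] {f : Fin 3 → Pol K}

/-- The exponent vector with given entries. -/
noncomputable def tri (a b c : ℕ) : Fin 3 →₀ ℕ := Finsupp.equivFunOnFinite.symm ![a, b, c]

theorem tri_0 (a b c : ℕ) : tri a b c 0 = a := rfl
theorem tri_1 (a b c : ℕ) : tri a b c 1 = b := rfl
theorem tri_2 (a b c : ℕ) : tri a b c 2 = c := rfl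

theorem tri_eta (e : Fin 3 →₀ ℕ) : tri (e 0) (e 1) (e 2) = e := by
  ext i
  fin_cases i <;> rfl

theorem degree_eq (e : Fin 3 →₀ ℕ) : e.degree = e 0 + e 1 + e 2 := by
  rw [Finsupp.degree_eq_sum, Fin.sum_univ_three]

theorem not_InP_iff (e : Fin 3 →₀ ℕ) : ¬ InP e ↔ e 0 < 3 ∧ e 1 < 3 ∧ e 2 < 3 := by
  unfold InP
  push_neg
  constructor
  · intro h
    exact ⟨h 0, h 1, h 2⟩
  · rintro ⟨h0, h1, h2⟩ i
    fin_cases i
    · exact h0
    · exact h1
    · exact h2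

/-- Counting exponent vectors outside `P` with a given property. -/
theorem ncard_nonP (R : ℕ → ℕ → ℕ → Prop) [∀ a b c, Decidable (R a b c)] :
    Set.ncard {e : Fin 3 →₀ ℕ | ¬ InP e ∧ R (e 0) (e 1) (e 2)}
      = (Finset.univ.filter fun t : Fin 3 × Fin 3 × Fin 3 =>
          R t.1.val t.2.1.val t.2.2.val).card := by
  let g : Fin 3 × Fin 3 × Fin 3 → (Fin 3 →₀ ℕ) := fun t => tri t.1.val t.2.1.val t.2.2.val
  have hg : Function.Injective g := by
    rintro ⟨a, b, c⟩ ⟨a', b', c'⟩ h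
    have h0 := DFunLike.congr_fun h 0
    have h1 := DFunLike.congr_fun h 1
    have h2 := DFunLike.congr_fun h 2
    simp only [g, tri_0, tri_1, tri_2] at h0 h1 h2
    rw [Fin.ext h0, Fin.ext h1, Fin.ext h2]
  have hs : {e : Fin 3 →₀ ℕ | ¬ InP e ∧ R (e 0) (e 1) (e 2)} = g '' ((Finset.univ.filter
      fun t : Fin 3 × Fin 3 × Fin 3 => R t.1.val t.2.1.val t.2.2.val :
        Finset (Fin 3 × Fin 3 × Fin 3)) : Set (Fin 3 × Fin 3 × Fin 3)) := by
    ext e
    simp only [Set.mem_setOf_eq, Set.mem_image, Finset.coe_filter, Finset.mem_univ, true_and]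
    constructor
    · rintro ⟨h1, h2⟩
      obtain ⟨h3, h4, h5⟩ := (not_InP_iff e).mp h1
      exact ⟨(⟨e 0, h3⟩, ⟨e 1, h4⟩, ⟨e 2, h5⟩), h2, tri_eta e⟩
    · rintro ⟨⟨a, b, c⟩, h1, rfl⟩
      refine ⟨(not_InP_iff _).mpr ⟨a.2, b.2, c.2⟩, h1⟩
  rw [hs, Set.ncard_image_of_injective _ hg, Set.ncard_coe_finset]

/-- The lexicographic rank, computed on triples. -/
def rankN (A B C : ℕ) : ℕ :=
  (Finset.univ.filter fun t : Fin 3 × Fin 3 × Fin 3 =>
    t.1.val + t.2.1.val + t.2.2.val = A + B + C ∧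
      (A < t.1.val ∨ (t.1.val = A ∧ B < t.2.1.val) ∨
        (t.1.val = A ∧ t.2.1.val = B ∧ C < t.2.2.val))).card

theorem lexRank_eq (e : Fin 3 →₀ ℕ) : lexRank e = rankN (e 0) (e 1) (e 2) := by
  have h := ncard_nonP (fun a b c => a + b + c = e 0 + e 1 + e 2 ∧
    (e 0 < a ∨ (a = e 0 ∧ e 1 < b) ∨ (a = e 0 ∧ b = e 1 ∧ e 2 < c)))
  refine Eq.trans ?_ h
  unfold lexRank
  congr 1
  ext e'
  simp only [Set.mem_setOf_eq, degree_eq, LexGt]
  tauto

/-- The number of monomials of degree `d` outside `P`, computed on triples. -/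
def nonPN (d : ℕ) : ℕ :=
  (Finset.univ.filter fun t : Fin 3 × Fin 3 × Fin 3 =>
    t.1.val + t.2.1.val + t.2.2.val = d).card

theorem ncard_degree (d : ℕ) : Set.ncard {e : Fin 3 →₀ ℕ | e.degree = d} = (d + 2).choose 2 := by
  classical
  have hs : {e : Fin 3 →₀ ℕ | e.degree = d} =
      ((Finset.finsuppAntidiag (Finset.univ : Finset (Fin 3)) d : Finset (Fin 3 →₀ ℕ)) :
        Set (Fin 3 →₀ ℕ)) := by
    ext e
    simp only [Set.mem_setOf_eq, Finset.mem_coe, Finset.mem_finsuppAntidiag]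
    simp [Finsupp.degree_eq_sum]
  rw [hs, Set.ncard_coe_finset, Finset.card_finsuppAntidiag_nat_eq_choose]
  simp only [Finset.card_univ, Fintype.card_fin]
  have : 3 + d - 1 = d + 2 := by omega
  rw [this]
  exact Nat.choose_symm_of_eq_add (by omega)

theorem finite_degree (d : ℕ) : Set.Finite {e : Fin 3 →₀ ℕ | e.degree = d} := by
  classical
  have hs : {e : Fin 3 →₀ ℕ | e.degree = d} =
      ((Finset.finsuppAntidiag (Finset.univ : Finset (Fin 3)) d : Finset (Fin 3 →₀ ℕ)) :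
        Set (Fin 3 →₀ ℕ)) := by
    ext e
    simp only [Set.mem_setOf_eq, Finset.mem_coe, Finset.mem_finsuppAntidiag]
    simp [Finsupp.degree_eq_sum]
  rw [hs]
  exact Finset.finite_toSet _

/-- The count of monomials in `P`. -/
theorem ncard_InP (d : ℕ) :
    Set.ncard {e : Fin 3 →₀ ℕ | e.degree = d ∧ InP e} + nonPN d = (d + 2).choose 2 := by
  classical
  have h1 : Set.ncard {e : Fin 3 →₀ ℕ | e.degree = d ∧ ¬ InP e} = nonPN d := by
    refine Eq.trans ?_ (ncard_nonP (fun a b c => a + b + c = d))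
    congr 1
    ext e
    simp only [Set.mem_setOf_eq, degree_eq]
    tauto
  rw [← h1, ← ncard_degree d]
  have h2 : {e : Fin 3 →₀ ℕ | e.degree = d} =
      {e : Fin 3 →₀ ℕ | e.degree = d ∧ InP e} ∪ {e : Fin 3 →₀ ℕ | e.degree = d ∧ ¬ InP e} := by
    ext e
    simp only [Set.mem_setOf_eq, Set.mem_union]
    tauto
  rw [h2, Set.ncard_union_eq ?_ ((finite_degree d).subset fun e he => he.1)
    ((finite_degree d).subset fun e he => he.1)]
  rw [Set.disjoint_left]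
  rintro e ⟨-, h⟩ ⟨-, h'⟩
  exact h' h

theorem table_rank : ∀ A ∈ Finset.range 3, ∀ B ∈ Finset.range 3, ∀ C ∈ Finset.range 3,
    (A + 1 < 3 → rankN (A + 1) B C < phi (A + B + C) (rankN A B C + 1)) ∧
    (B + 1 < 3 → rankN A (B + 1) C < phi (A + B + C) (rankN A B C + 1)) ∧
    (C + 1 < 3 → rankN A B (C + 1) < phi (A + B + C) (rankN A B C + 1)) := by
  decide

/-- Monotonicity of the table on the relevant range. -/
theorem phi_mono : ∀ d ∈ Finset.range 6, ∀ u ∈ Finset.range 9, ∀ v ∈ Finset.range 9,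
    u ≤ v → phi d u ≤ phi d v := by
  decide

theorem nonPN_table : nonPN 0 = 1 ∧ nonPN 1 = 3 ∧ nonPN 2 = 6 ∧ nonPN 3 = 7 ∧ nonPN 4 = 6 ∧
    nonPN 5 = 3 ∧ nonPN 6 = 1 := by
  decide

end Vale.Agent.P200
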