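import Vale.Agent.P200.Koszul

/-!
# The socle of the complete intersection lives in degree six
-/

namespace Vale.Agent.P200

open MvPolynomial Module

variable {K : Type*} [Field K] {f : Fin 3 → Pol K}

/-- The ideal generated by the three forms. -/
noncomputable def Fid (f : Fin 3 → Pol K) : Ideal (Pol K) := Ideal.span (Set.range f)

theorem f_mem_Fid (i : Fin 3) : f i ∈ Fid f := Ideal.subset_span ⟨i, rfl⟩

theorem comb_mem_Fid (c : Fin 3 → Pol K) : ∑ i, c i * f i ∈ Fid f :=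
  Ideal.sum_mem _ fun i _ => Ideal.mul_mem_left _ _ (f_mem_Fid i)

theorem Fid_comb (hf : IsRegCubic f) {n : ℕ} {p : Pol K} (hp : p.IsHomogeneous (n + 3))
    (hm : p ∈ Fid f) : ∃ c : Fin 3 → Pol K, (∀ i, (c i).IsHomogeneous n) ∧ p = ∑ i, c i * f i := by
  obtain ⟨c, hc⟩ := (Ideal.mem_span_range_iff_exists_fun).mp hm
  refine ⟨fun i => homogeneousComponent n (c i), fun i => homogeneousComponent_isHomogeneous _ _, ?_⟩
  rw [← hc] at hp ⊢
  exact hc_comb hf.hom hp

theorem Fid_low (hf : IsRegCubic f) {n : ℕ} {p : Pol K} (hp : p.IsHomogeneous n) (hn : n < 3)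
    (hm : p ∈ Fid f) : p = 0 := by
  obtain ⟨c, hc⟩ := (Ideal.mem_span_range_iff_exists_fun).mp hm
  rw [← homogeneousComponent_eq_self hp, ← hc, map_sum]
  exact Finset.sum_eq_zero fun i _ => hc_mul_lt (hf.hom i) _ hn

/-- The socle of `S/(f)` vanishes below degree six. -/
theorem socle (hf : IsRegCubic f) {k : ℕ} (hk : k ≤ 5) {a : Pol K} (ha : a.IsHomogeneous k)
    (h : ∀ j, X j * a ∈ Fid f) : a ∈ Fid f := by
  have hXa : ∀ j, (X j * a : Pol K).IsHomogeneous (1 + k) := fun j => (isHomogeneous_X K j).mul ha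
  by_cases hk2 : k < 2
  · have h0 := Fid_low hf (hXa 0) (by omega) (h 0)
    have h1 : a = 0 := (mul_eq_zero.mp h0).resolve_left (X_ne_zero 0)
    rw [h1]
    exact Ideal.zero_mem _
  obtain ⟨n, rfl⟩ : ∃ n, k = n + 2 := ⟨k - 2, by omega⟩
  have hC : ∀ j, ∃ c : Fin 3 → Pol K, (∀ i, (c i).IsHomogeneous n) ∧
      X j * a = ∑ i, c i * f i := by
    intro j
    refine Fid_comb hf ?_ (h j)
    have : 1 + (n + 2) = n + 3 := by omega
    rw [← this]
    exact hXa j
  choose C hC1 hC2 using hC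
  simp only [Fin.sum_univ_three] at hC2
  -- the syzygies
  have hhom : ∀ (j l : Fin 3) (i : Fin 3),
      (X j * C l i - X l * C j i : Pol K).IsHomogeneous (n + 1) := by
    intro j l i
    have h1 : (X j * C l i : Pol K).IsHomogeneous (1 + n) := (isHomogeneous_X K j).mul (hC1 l i)
    have h2 : (X l * C j i : Pol K).IsHomogeneous (1 + n) := (isHomogeneous_X K l).mul (hC1 j i)
    have h3 := h1.sub h2
    rwa [add_comm] at h3
  have hrel : ∀ j l : Fin 3, ∑ i, (X j * C l i - X l * C j i) * f i = 0 := by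
    intro j l
    rw [Fin.sum_univ_three]
    linear_combination (-(X j : Pol K)) * hC2 l + (X l : Pol K) * hC2 j
  obtain ⟨D0, hD0h, hD0l, hD00, hD01, hD02⟩ := H1 hf (fun i => hhom 1 2 i) (hrel 1 2)
  obtain ⟨D1, hD1h, hD1l, hD10, hD11, hD12⟩ := H1 hf (fun i => hhom 2 0 i) (hrel 2 0)
  obtain ⟨D2, hD2h, hD2l, hD20, hD21, hD22⟩ := H1 hf (fun i => hhom 0 1 i) (hrel 0 1)
  -- the contraction
  let G : Fin 3 → Pol K := fun i => X 0 * D0 i + X 1 * D1 i + X 2 * D2 i
  have hG : ∀ i, (G i).IsHomogeneous (n - 1) := by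
    intro i
    by_cases hn : n + 1 < 3
    · have h0 : G i = 0 := by
        simp only [G]
        rw [hD0l hn i, hD1l hn i, hD2l hn i]
        simp
      rw [h0]
      exact isHomogeneous_zero _ _ _
    · have e : 1 + (n + 1 - 3) = n - 1 := by omega
      have h1 : (X 0 * D0 i : Pol K).IsHomogeneous (n - 1) := by
        rw [← e]
        exact (isHomogeneous_X K 0).mul (hD0h i)
      have h2 : (X 1 * D1 i : Pol K).IsHomogeneous (n - 1) := by
        rw [← e]
        exact (isHomogeneous_X K 1).mul (hD1h i)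
      have h3 : (X 2 * D2 i : Pol K).IsHomogeneous (n - 1) := by
        rw [← e]
        exact (isHomogeneous_X K 2).mul (hD2h i)
      exact (h1.add h2).add h3
  have hG0 : ∀ i, G i = 0 := by
    refine H2_low hf (m := n - 1) (by omega) hG ?_ ?_
    · simp only [G]
      linear_combination (-(X 0 : Pol K)) * hD02 - (X 1 : Pol K) * hD12 - (X 2 : Pol K) * hD22
    · simp only [G]
      linear_combination (-(X 0 : Pol K)) * hD01 - (X 1 : Pol K) * hD11 - (X 2 : Pol K) * hD21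
  -- exactness for the variables
  have hG00 : D0 0 * X 0 + D1 0 * X 1 + D2 0 * X 2 = 0 := by
    have := hG0 0
    simp only [G] at this
    linear_combination this
  have hG01 : D0 1 * X 0 + D1 1 * X 1 + D2 1 * X 2 = 0 := by
    have := hG0 1
    simp only [G] at this
    linear_combination this
  have hG02 : D0 2 * X 0 + D1 2 * X 1 + D2 2 * X 2 = 0 := by
    have := hG0 2
    simp only [G] at this
    linear_combination this
  obtain ⟨u00, u01, u02, hu00, hu01, hu02⟩ := koszul1 regX₀ regX₁ regX₂ hG00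
  obtain ⟨u10, u11, u12, hu10, hu11, hu12⟩ := koszul1 regX₀ regX₁ regX₂ hG01
  obtain ⟨u20, u21, u22, hu20, hu21, hu22⟩ := koszul1 regX₀ regX₁ regX₂ hG02
  -- the corrected coefficients
  obtain ⟨b0, hb00, -, -⟩ := koszul2 (r₀ := (X 0 : Pol K)) (r₁ := X 1) (r₂ := X 2)
    (w₀ := C 0 0 - (f 1 * u20 - f 2 * u10)) (w₁ := C 1 0 - (f 1 * u21 - f 2 * u11))
    (w₂ := C 2 0 - (f 1 * u22 - f 2 * u12)) regX₀ regX₁
    (by linear_combination hD20 + f 1 * hu22 - f 2 * hu12)
    (by linear_combination hD10 + f 1 * hu21 - f 2 * hu11)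
  obtain ⟨b1, hb10, -, -⟩ := koszul2 (r₀ := (X 0 : Pol K)) (r₁ := X 1) (r₂ := X 2)
    (w₀ := C 0 1 - (f 2 * u00 - f 0 * u20)) (w₁ := C 1 1 - (f 2 * u01 - f 0 * u21))
    (w₂ := C 2 1 - (f 2 * u02 - f 0 * u22)) regX₀ regX₁
    (by linear_combination hD21 + f 2 * hu02 - f 0 * hu22)
    (by linear_combination hD11 + f 2 * hu01 - f 0 * hu21)
  obtain ⟨b2, hb20, -, -⟩ := koszul2 (r₀ := (X 0 : Pol K)) (r₁ := X 1) (r₂ := X 2)
    (w₀ := C 0 2 - (f 0 * u10 - f 1 * u00)) (w₁ := C 1 2 - (f 0 * u11 - f 1 * u01))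
    (w₂ := C 2 2 - (f 0 * u12 - f 1 * u02)) regX₀ regX₁
    (by linear_combination hD22 + f 0 * hu12 - f 1 * hu02)
    (by linear_combination hD12 + f 0 * hu11 - f 1 * hu01)
  have hfinal : a = b0 * f 0 + b1 * f 1 + b2 * f 2 := by
    have h0 : (a - (b0 * f 0 + b1 * f 1 + b2 * f 2)) * X 0 = 0 := by
      linear_combination hC2 0 + f 0 * hb00 + f 1 * hb10 + f 2 * hb20
    exact sub_eq_zero.mp (regX₀ _ h0)
  rw [hfinal]
  exact Ideal.add_mem _ (Ideal.add_mem _ (Ideal.mul_mem_left _ _ (f_mem_Fid 0))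
    (Ideal.mul_mem_left _ _ (f_mem_Fid 1))) (Ideal.mul_mem_left _ _ (f_mem_Fid 2))

end Vale.Agent.P200
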