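import Vale.Agent.P200.Up

/-!
# Three quadrics without common factor
-/

namespace Vale.Agent.P200

open MvPolynomial Module

variable {K : Type*} [Field K] {f : Fin 3 → Pol K}

theorem lin_X (i : Fin 3) : Lin (X i : Pol K) := ⟨isHomogeneous_X K i, X_ne_zero i⟩

/-- The multiples of `q 2` by the three variables are not all combinations of those of
`q 0` and `q 1`. -/
theorem not_all_in {q₀ q₁ q₂ : Pol K} (h₀ : q₀.IsHomogeneous 2) (h₀0 : q₀ ≠ 0)
    (h₁ : q₁.IsHomogeneous 2) (hnp : ∀ r : K, q₁ ≠ C r * q₀) (hn : NoCommon q₀ q₁)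
    (h3 : ∀ r s : K, q₂ ≠ C r * q₀ + C s * q₁)
    (hall : ∀ i : Fin 3, ∃ a b : Pol K, a.IsHomogeneous 1 ∧ b.IsHomogeneous 1 ∧
      X i * q₂ = a * q₀ + b * q₁) : False := by
  have hq₁0 : q₁ ≠ 0 := by
    intro h
    exact hnp 0 (by simp [h])
  obtain ⟨a₀, b₀, ha₀, hb₀, e₀⟩ := hall 0
  obtain ⟨a₁, b₁, ha₁, hb₁, e₁⟩ := hall 1
  obtain ⟨a₂, b₂, ha₂, hb₂, e₂⟩ := hall 2
  have key : ∀ i j : Fin 3, ∀ {ai bi aj bj : Pol K}, bi.IsHomogeneous 1 → bj.IsHomogeneous 1 →
      X i * q₂ = ai * q₀ + bi * q₁ → X j * q₂ = aj * q₀ + bj * q₁ →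
      ∃ e : K, X j * bi - X i * bj = C e * q₀ ∧ X j * ai - X i * aj = -(C e * q₁) := by
    intro i j ai bi aj bj hbi hbj ei ej
    refine syz_const h₀ h₀0 h₁ hnp hn ?_ ?_
    · exact ((isHomogeneous_X K j).mul hbi).sub ((isHomogeneous_X K i).mul hbj)
    · linear_combination X i * ej - X j * ei
  obtain ⟨e01, s01, t01⟩ := key 0 1 hb₀ hb₁ e₀ e₁
  obtain ⟨e02, s02, t02⟩ := key 0 2 hb₀ hb₂ e₀ e₂
  obtain ⟨e12, s12, t12⟩ := key 1 2 hb₁ hb₂ e₁ e₂
  have h4 : (C e01 * X 2 - C e02 * X 1 + C e12 * X 0) * q₁ = 0 := by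
    linear_combination (X 2 : Pol K) * t01 - X 1 * t02 + X 0 * t12
  have h5 := (mul_eq_zero.mp h4).resolve_right hq₁0
  have h6 := congrArg (eval ![0, 0, (1 : K)]) h5
  simp at h6
  rw [h6] at s01 t01
  simp only [map_zero, zero_mul, neg_zero] at s01 t01
  have h7 : (X 0 : Pol K) ∣ a₀ := by
    have h8 : (X 0 : Pol K) ∣ X 1 * a₀ := ⟨a₁, by linear_combination t01⟩
    rcases (lin_X 0).prime.dvd_or_dvd h8 with h9 | h9
    · rw [X_dvd_X] at h9
      exact absurd h9 (by decide)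
    · exact h9
  have h7' : (X 0 : Pol K) ∣ b₀ := by
    have h8 : (X 0 : Pol K) ∣ X 1 * b₀ := ⟨b₁, by linear_combination s01⟩
    rcases (lin_X 0).prime.dvd_or_dvd h8 with h9 | h9
    · rw [X_dvd_X] at h9
      exact absurd h9 (by decide)
    · exact h9
  obtain ⟨r, hr⟩ := dvd_same_degree (lin_X 0).hom (lin_X 0).ne ha₀ h7
  obtain ⟨s, hs⟩ := dvd_same_degree (lin_X 0).hom (lin_X 0).ne hb₀ h7'
  refine h3 r s ?_
  have h9 : (X 0 : Pol K) * (q₂ - (C r * q₀ + C s * q₁)) = 0 := by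
    rw [hr, hs] at e₀
    linear_combination e₀
  exact sub_eq_zero.mp ((mul_eq_zero.mp h9).resolve_left (X_ne_zero 0))

/-- The main count for three quadrics. -/
theorem triple (hf : IsRegCubic f) {q : Fin 3 → Pol K} (hq : ∀ i, (q i).IsHomogeneous 2)
    (h0 : q 0 ≠ 0) (hnp : ∀ r : K, q 1 ≠ C r * q 0) (hn : NoCommon (q 0) (q 1))
    (h3 : ∀ r s : K, q 2 ≠ C r * q 0 + C s * q 1) :
    8 ≤ finrank K ↥(((Sd K 1).map (mulBy (q 0)) ⊔ (Sd K 1).map (mulBy (q 1))
      ⊔ (Sd K 1).map (mulBy (q 2))) ⊔ Fd f 3) := by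
  set B := (Sd K 1).map (mulBy (q 0)) ⊔ (Sd K 1).map (mulBy (q 1)) with hB
  have hB6 : finrank K B = 6 := pair_six (hq 0) h0 (hq 1) hnp hn
  have hq₂0 : q 2 ≠ 0 := by
    intro h
    exact h3 0 0 (by simp [h])
  have hBmem : ∀ p ∈ B, ∃ a b : Pol K, a.IsHomogeneous 1 ∧ b.IsHomogeneous 1 ∧
      p = a * q 0 + b * q 1 := by
    intro p hp
    obtain ⟨u, hu, v, hv, rfl⟩ := Submodule.mem_sup.mp hp
    obtain ⟨a, ha, rfl⟩ := mem_map_mulBy.mp hu
    obtain ⟨b, hb, rfl⟩ := mem_map_mulBy.mp hv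
    exact ⟨a, b, ha, hb, by ring⟩
  let L : Submodule K (Pol K) := Sd K 1 ⊓ B.comap (mulBy (q 2))
  have hL : L ≤ Sd K 1 := inf_le_left
  haveI := finDim hL
  have hinter : B ⊓ (Sd K 1).map (mulBy (q 2)) = L.map (mulBy (q 2)) := by
    ext p
    constructor
    · rintro ⟨hp1, hp2⟩
      obtain ⟨l, hl, rfl⟩ := mem_map_mulBy.mp hp2
      exact mem_map_mulBy.mpr ⟨l, ⟨hl, hp1⟩, rfl⟩
    · intro hp
      obtain ⟨l, ⟨hl1, hl2⟩, rfl⟩ := mem_map_mulBy.mp hp
      exact ⟨hl2, mem_map_mulBy.mpr ⟨l, hl1, rfl⟩⟩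
  have hdim := Submodule.finrank_sup_add_finrank_inf_eq B ((Sd K 1).map (mulBy (q 2)))
  rw [hinter, finrank_map_mulBy hq₂0, finrank_map_mulBy hq₂0, hB6, finrank_Sd] at hdim
  norm_num [Nat.choose] at hdim
  -- the subspace `L` is not everything
  have hL3 : finrank K L ≤ 2 := by
    by_contra hcon
    have h4 : L = Sd K 1 := by
      refine Submodule.eq_of_le_of_finrank_le hL ?_
      rw [finrank_Sd]
      norm_num [Nat.choose]
      omega
    refine not_all_in (hq 0) h0 (hq 1) hnp hn h3 fun i => ?_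
    have h5 : (X i : Pol K) ∈ L := by
      rw [h4]
      exact isHomogeneous_X K i
    obtain ⟨a, b, ha, hb, hab⟩ := hBmem _ h5.2
    exact ⟨a, b, ha, hb, by rw [mul_comm]; exact hab⟩
  by_contra hcon
  have hsup : B ⊔ (Sd K 1).map (mulBy (q 2)) ≤ (B ⊔ (Sd K 1).map (mulBy (q 2))) ⊔ Fd f 3 :=
    le_sup_left
  have hm := finrank_le_of_le hsup
  have hL2 : finrank K L = 2 := by omega
  have hs7 : finrank K ↥(B ⊔ (Sd K 1).map (mulBy (q 2))) = 7 := by omega
  have hF : B ⊔ (Sd K 1).map (mulBy (q 2)) = (B ⊔ (Sd K 1).map (mulBy (q 2))) ⊔ Fd f 3 :=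
    Submodule.eq_of_le_of_finrank_le hsup (by omega)
  have hfi : ∀ i, f i ∈ B ⊔ (Sd K 1).map (mulBy (q 2)) := by
    intro i
    rw [hF]
    refine Submodule.mem_sup_right ?_
    rw [mem_Fd]
    exact ⟨f_mem_Fid i, hf.hom i⟩
  -- two independent linear forms in `L`
  obtain ⟨l, hl, hl0⟩ := exists_ne_zero (V := L) (by omega)
  obtain ⟨l', hl', hl's⟩ := exists_not_mem (U := Submodule.span K {l}) (V := L)
    (by have := finrank_span_le_card (R := K) ({l} : Set (Pol K)); simp at this; omega)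
  have hl'0 : l' ≠ 0 := by
    rintro rfl
    exact hl's (Submodule.zero_mem _)
  have Ll : Lin l := ⟨hl.1, hl0⟩
  have Ll' : Lin l' := ⟨hl'.1, hl'0⟩
  have hnd : ¬ l ∣ l' := by
    intro hd
    obtain ⟨r, hr⟩ := dvd_same_degree Ll.hom Ll.ne Ll'.hom hd
    exact hl's (mem_span_of_eq_C hr)
  -- the forms of degree five modulo `l`, `l'`
  set L' := (Sd K (3 + 1)).map (mulBy l) ⊔ (Sd K (3 + 1)).map (mulBy l') with hL'
  have h20 := pair_lower Ll Ll' hnd 3
  rw [finrank_Sd, finrank_Sd] at h20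
  norm_num [Nat.choose] at h20
  rw [show (3 + 1 : ℕ) = 4 by norm_num] at hL'
  rw [← hL'] at h20
  have hL'5 : L' ≤ Sd K 5 :=
    sup_le (map_le_Sd Ll.hom (by norm_num) le_rfl) (map_le_Sd Ll'.hom (by norm_num) le_rfl)
  obtain ⟨g, hg, hg'⟩ := codim_one hL'5 (by
    rw [finrank_Sd]
    norm_num [Nat.choose]
    omega)
  -- the degree seven count
  set Q := (Sd K (3 + 2)).map (mulBy (q 0)) ⊔ (Sd K (3 + 2)).map (mulBy (q 1)) with hQ
  have hQ32 := pair_upper (hq 0) h0 (hq 1) (fun h => hnp 0 (by simp [h])) 3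
  rw [finrank_Sd, finrank_Sd, ← hQ] at hQ32
  norm_num [Nat.choose] at hQ32
  have hG : finrank K ↥(Q ⊔ Submodule.span K {g * q 2}) ≤ 33 := by
    have h4 := finrank_sup_le (V := Q) (W := Submodule.span K {g * q 2})
    have h5 := finrank_span_le_card (R := K) ({g * q 2} : Set (Pol K))
    simp only [Set.toFinset_singleton, Finset.card_singleton] at h5
    omega
  have h7 : Sd K 7 ≤ Q ⊔ Submodule.span K {g * q 2} := by
    intro p hp
    have hp' : p.IsHomogeneous 7 := hp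
    have hI : Fid f ≤ Ideal.span (Set.range q) := by
      rw [Fid, Ideal.span_le]
      rintro _ ⟨i, rfl⟩
      obtain ⟨u, hu, v, hv, huv⟩ := Submodule.mem_sup.mp (hfi i)
      obtain ⟨a, b, -, -, rfl⟩ := hBmem u hu
      obtain ⟨c, -, rfl⟩ := mem_map_mulBy.mp hv
      rw [← huv]
      refine Ideal.add_mem _ (Ideal.add_mem _ ?_ ?_) ?_
      · exact Ideal.mul_mem_left _ _ (Ideal.subset_span ⟨0, rfl⟩)
      · exact Ideal.mul_mem_left _ _ (Ideal.subset_span ⟨1, rfl⟩)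
      · exact Ideal.mul_mem_right _ _ (Ideal.subset_span ⟨2, rfl⟩)
    have hpI := hI (top_mem hf hp')
    obtain ⟨c, hc⟩ := (Ideal.mem_span_range_iff_exists_fun (R := Pol K)).mp hpI
    have hc' := hc_comb (n := 5) (e := 2) hq (c := c) (by rw [hc]; exact hp')
    rw [← hc, hc', Fin.sum_univ_three]
    refine Submodule.add_mem _ (Submodule.add_mem _ ?_ ?_) ?_
    · refine Submodule.mem_sup_left (Submodule.mem_sup_left ?_)
      exact mem_map_mulBy.mpr ⟨_, homogeneousComponent_isHomogeneous 5 (c 0), by ring⟩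
    · refine Submodule.mem_sup_left (Submodule.mem_sup_right ?_)
      exact mem_map_mulBy.mpr ⟨_, homogeneousComponent_isHomogeneous 5 (c 1), by ring⟩
    · have hγ : homogeneousComponent 5 (c 2) ∈ L' ⊔ Submodule.span K {g} :=
        hg' (homogeneousComponent_isHomogeneous 5 (c 2))
      obtain ⟨u, hu, v, hv, huv⟩ := Submodule.mem_sup.mp hγ
      obtain ⟨u₁, hu₁, u₂, hu₂, hu₁₂⟩ := Submodule.mem_sup.mp hu
      obtain ⟨s, hs, rfl⟩ := mem_map_mulBy.mp hu₁
      obtain ⟨s', hs', rfl⟩ := mem_map_mulBy.mp hu₂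
      obtain ⟨r, rfl⟩ := Submodule.mem_span_singleton.mp hv
      obtain ⟨a, b, ha, hb, hab⟩ := hBmem _ hl.2
      obtain ⟨a', b', ha', hb', hab'⟩ := hBmem _ hl'.2
      have e : homogeneousComponent 5 (c 2) * q 2 = (s * a + s' * a') * q 0 + (s * b + s' * b') * q 1
          + r • (g * q 2) := by
        rw [← huv, ← hu₁₂, smul_eq_C_mul, smul_eq_C_mul]
        change q 2 * l = _ at hab
        change q 2 * l' = _ at hab'
        linear_combination s * hab + s' * hab'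
      rw [e]
      refine Submodule.add_mem _ (Submodule.add_mem _ ?_ ?_) ?_
      · refine Submodule.mem_sup_left (Submodule.mem_sup_left ?_)
        refine mem_map_mulBy.mpr ⟨s * a + s' * a', ?_, by ring⟩
        have hs1 : s.IsHomogeneous 4 := hs
        have hs2 : s'.IsHomogeneous 4 := hs'
        exact (hs1.mul ha).add (hs2.mul ha')
      · refine Submodule.mem_sup_left (Submodule.mem_sup_right ?_)
        refine mem_map_mulBy.mpr ⟨s * b + s' * b', ?_, by ring⟩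
        have hs1 : s.IsHomogeneous 4 := hs
        have hs2 : s'.IsHomogeneous 4 := hs'
        exact (hs1.mul hb).add (hs2.mul hb')
      · exact Submodule.mem_sup_right
          (Submodule.smul_mem _ _ (Submodule.mem_span_singleton_self _))
  have h8 := finrank_le_of_le h7
  rw [finrank_Sd] at h8
  norm_num [Nat.choose] at h8
  omega

end Vale.Agent.P200
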