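import Vale.Agent.P200.Count

/-!
# Growth in low degree: degrees zero and one, and tools for degree two
-/

namespace Vale.Agent.P200

open MvPolynomial Module

variable {K : Type*} [Field K] {f : Fin 3 → Pol K}

/-- The linear forms times a subspace. -/
noncomputable def up (Y : Submodule K (Pol K)) : Submodule K (Pol K) := Sd K 1 * Y

theorem mul_mem_up {Y : Submodule K (Pol K)} {l q : Pol K} (hl : l.IsHomogeneous 1) (hq : q ∈ Y) :
    l * q ∈ up Y := Submodule.mul_mem_mul hl hq

theorem up_le {Y : Submodule K (Pol K)} {n : ℕ} (hY : Y ≤ Sd K n) : up Y ≤ Sd K (n + 1) := by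
  refine Submodule.mul_le.mpr fun l hl q hq => ?_
  have h1 : l.IsHomogeneous 1 := hl
  have h2 : q.IsHomogeneous n := hY hq
  have h3 := h2.mul h1
  rw [mul_comm] at h3
  exact h3

theorem up_mono {Y Z : Submodule K (Pol K)} (h : Y ≤ Z) : up Y ≤ up Z :=
  mul_le_mul' le_rfl h

theorem map_le_up {Y : Submodule K (Pol K)} {q : Pol K} (hq : q ∈ Y) :
    (Sd K 1).map (mulBy q) ≤ up Y := by
  intro p hp
  obtain ⟨l, hl, rfl⟩ := mem_map_mulBy.mp hp
  rw [mul_comm]
  exact mul_mem_up hl hq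

/-- Every form of positive degree is a sum of linear forms times forms. -/
theorem Sd_succ_le (n : ℕ) : Sd K (n + 1) ≤ Sd K 1 * Sd K n := by
  classical
  intro p hp
  have hp' : p.IsHomogeneous (n + 1) := hp
  rw [p.as_sum]
  refine Submodule.sum_mem _ fun e he => ?_
  have hd : e.degree = n + 1 := by
    by_contra hne
    exact (mem_support_iff.mp he) (hp'.coeff_eq_zero hne)
  obtain ⟨i, hi⟩ : ∃ i, e i ≠ 0 := by
    by_contra hcon
    push_neg at hcon
    have : e = 0 := Finsupp.ext hcon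
    rw [this] at hd
    simp at hd
  have h1 : e = Finsupp.single i 1 + (e - Finsupp.single i 1) := by
    ext j
    by_cases hj : j = i
    · subst hj
      simp
      omega
    · simp [Finsupp.single_apply, Ne.symm hj]
  have h2 : monomial e (coeff e p) = (X i : Pol K) * monomial (e - Finsupp.single i 1) (coeff e p) := by
    rw [X, monomial_mul, one_mul, ← h1]
  rw [h2]
  refine Submodule.mul_mem_mul (isHomogeneous_X K i) ?_
  refine isHomogeneous_monomial _ ?_
  have h3 : (Finsupp.single i 1 + (e - Finsupp.single i 1)).degree = n + 1 := by rw [← h1]; exact hd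
  rw [map_add] at h3
  simp at h3
  omega

theorem up_top_eq (n : ℕ) : up (Sd K n) = Sd K (n + 1) :=
  le_antisymm (up_le le_rfl) (Sd_succ_le n)

/-- A subspace strictly smaller in dimension misses an element. -/
theorem exists_not_mem {U V : Submodule K (Pol K)} [FiniteDimensional K U] [FiniteDimensional K V]
    (h : finrank K U < finrank K V) : ∃ v ∈ V, v ∉ U := by
  by_contra hcon
  push_neg at hcon
  exact absurd (finrank_le_of_le (show V ≤ U from hcon)) (by omega)

/-- A subspace of codimension at most one. -/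
theorem codim_one {V U : Submodule K (Pol K)} [FiniteDimensional K U] (hVU : V ≤ U)
    (h : finrank K U ≤ finrank K V + 1) : ∃ g ∈ U, U ≤ V ⊔ Submodule.span K {g} := by
  haveI : FiniteDimensional K V := Submodule.finiteDimensional_of_le hVU
  by_cases hVeq : V = U
  · exact ⟨0, U.zero_mem, by simp [hVeq]⟩
  · obtain ⟨g, hgU, hgV⟩ : ∃ g ∈ U, g ∉ V := by
      by_contra hcon
      push_neg at hcon
      exact hVeq (le_antisymm hVU hcon)
    refine ⟨g, hgU, ?_⟩
    have h1 : V ⊔ Submodule.span K {g} ≤ U :=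
      sup_le hVU ((Submodule.span_singleton_le_iff_mem _ _).mpr hgU)
    have h3 : V < V ⊔ Submodule.span K {g} := by
      refine lt_of_le_of_ne le_sup_left ?_
      intro h
      apply hgV
      rw [h]
      exact Submodule.mem_sup_right (Submodule.mem_span_singleton_self _)
    have h2 : finrank K V + 1 ≤ finrank K ↥(V ⊔ Submodule.span K {g}) :=
      Submodule.finrank_lt_finrank_of_lt h3
    exact le_of_eq (Submodule.eq_of_le_of_finrank_le h1 (by omega)).symm

/-- Same degree divisibility gives proportionality. -/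
theorem dvd_same_degree {a b : Pol K} {α : ℕ} (ha : a.IsHomogeneous α) (ha0 : a ≠ 0)
    (hb : b.IsHomogeneous α) (h : a ∣ b) : ∃ r : K, b = C r * a := by
  obtain ⟨e, rfl⟩ := h
  have h0 : e.IsHomogeneous 0 := by
    refine quot_hom ha ha0 ?_
    rw [mul_comm]
    simpa using hb
  obtain ⟨r, rfl⟩ := const_of_hom0 h0
  exact ⟨r, by ring⟩

theorem mem_span_of_eq_C {a b : Pol K} {r : K} (h : b = C r * a) : b ∈ Submodule.span K {a} := by
  rw [Submodule.mem_span_singleton]
  exact ⟨r, by rw [h, C_mul']⟩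

/-- A nonzero element of a nonzero subspace. -/
theorem exists_ne_zero {V : Submodule K (Pol K)} [FiniteDimensional K V]
    (h : 1 ≤ finrank K V) : ∃ q ∈ V, q ≠ 0 := by
  obtain ⟨v, hv⟩ := (finrank_pos_iff_exists_ne_zero (R := K) (M := V)).mp (by omega)
  exact ⟨v.1, v.2, fun h0 => hv (Subtype.ext h0)⟩

/-- Growth: nonzero subspaces. -/
theorem up_ge_three {Y : Submodule K (Pol K)} {n : ℕ} (hY : Y ≤ Sd K n)
    (h : 1 ≤ finrank K Y) : 3 ≤ finrank K (up Y) := by
  haveI := finDim hY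
  haveI := finDim (up_le hY)
  obtain ⟨q, hq, hq0⟩ := exists_ne_zero h
  have h1 := finrank_le_of_le (map_le_up hq)
  rw [finrank_map_mulBy hq0, finrank_Sd] at h1
  simpa [Nat.choose] using h1

/-- A form not in the span of a given nonzero linear form. -/
theorem up_ge_five {Y : Submodule K (Pol K)} (hY : Y ≤ Sd K 1)
    (h : 2 ≤ finrank K Y) : 5 ≤ finrank K (up Y) := by
  haveI := finDim hY
  haveI := finDim (up_le hY)
  obtain ⟨l₁, hl₁, hl₁0⟩ := exists_ne_zero (V := Y) (by omega)
  obtain ⟨l₂, hl₂, hl₂s⟩ := exists_not_mem (U := Submodule.span K {l₁}) (V := Y)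
    (by have := finrank_span_le_card (R := K) ({l₁} : Set (Pol K)); simp at this; omega)
  have hl₂0 : l₂ ≠ 0 := by
    rintro rfl
    exact hl₂s (Submodule.zero_mem _)
  have L₁ : Lin l₁ := ⟨hY hl₁, hl₁0⟩
  have L₂ : Lin l₂ := ⟨hY hl₂, hl₂0⟩
  have hnd : ¬ l₁ ∣ l₂ := by
    intro hd
    obtain ⟨r, hr⟩ := dvd_same_degree L₁.hom L₁.ne L₂.hom hd
    exact hl₂s (mem_span_of_eq_C hr)
  have h1 := pair_lower L₁ L₂ hnd 0
  rw [finrank_Sd, finrank_Sd] at h1
  have h2 : (Sd K (0 + 1)).map (mulBy l₁) ⊔ (Sd K (0 + 1)).map (mulBy l₂) ≤ up Y :=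
    sup_le (map_le_up hl₁) (map_le_up hl₂)
  have h3 := finrank_le_of_le h2
  norm_num [Nat.choose] at h1
  omega

theorem up_ge_six {Y : Submodule K (Pol K)} (hY : Y ≤ Sd K 1)
    (h : 3 ≤ finrank K Y) : 6 ≤ finrank K (up Y) := by
  have h1 : Y = Sd K 1 := by
    refine Submodule.eq_of_le_of_finrank_le hY ?_
    rw [finrank_Sd]
    simpa [Nat.choose] using h
  rw [h1, up_top_eq, finrank_Sd]
  norm_num [Nat.choose]

/-- When all elements have a common linear factor. -/
theorem common_factor (hf : IsRegCubic f) {Y : Submodule K (Pol K)} (hY : Y ≤ Sd K 2)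
    {l : Pol K} (hl : Lin l) (hd : ∀ q ∈ Y, l ∣ q) :
    ∃ V : Submodule K (Pol K), V ≤ Sd K 1 ∧ finrank K V = finrank K Y ∧
      finrank K (up V) + 2 ≤ finrank K ↥(up Y ⊔ Fd f 3) := by
  let V : Submodule K (Pol K) := Y.comap (mulBy l)
  have hV : V ≤ Sd K 1 := by
    intro r hr
    have h1 : l * r ∈ Y := hr
    have h2 : (l * r).IsHomogeneous 2 := hY h1
    refine quot_hom hl.hom hl.ne (β := 1) (α := 1) ?_
    rwa [mul_comm]
  have hVY : V.map (mulBy l) = Y := by
    refine le_antisymm (Submodule.map_comap_le _ _) ?_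
    intro q hq
    obtain ⟨e, rfl⟩ := hd q hq
    exact mem_map_mulBy.mpr ⟨e, hq, rfl⟩
  refine ⟨V, hV, ?_, ?_⟩
  · conv_rhs => rw [← hVY]
    rw [finrank_map_mulBy hl.ne]
  · have h1 : (up V).map (mulBy l) ≤ up Y := by
      rintro p hp
      obtain ⟨w, hw, rfl⟩ := mem_map_mulBy.mp hp
      have h2 : up V ≤ (up Y).comap (mulBy l) := by
        refine Submodule.mul_le.mpr fun m hm r hr => ?_
        have h3 : l * r ∈ Y := hr
        have h4 := mul_mem_up (Y := Y) hm h3
        change l * (m * r) ∈ up Y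
        rwa [mul_left_comm]
      exact h2 hw
    have hU : (up V).map (mulBy l) ≤ Sd K 3 := map_le_Sd hl.hom (n := 2) (by norm_num) (up_le hV)
    have h2 := L1 hf hl.hom hl.ne (Or.inl rfl) hU (by
      intro p hp
      obtain ⟨w, -, rfl⟩ := mem_map_mulBy.mp hp
      exact dvd_mul_right _ _)
    rw [finrank_map_mulBy hl.ne] at h2
    haveI := finDim (up_le hY)
    have h3 := finrank_le_of_le (sup_le_sup_right h1 (Fd f 3))
    omega

/-- Two quadrics without common linear factor: their multiples by linear forms are independent. -/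
theorem pair_six {q₁ q₂ : Pol K} (h₁ : q₁.IsHomogeneous 2) (h₁0 : q₁ ≠ 0)
    (h₂ : q₂.IsHomogeneous 2) (hnp : ∀ r : K, q₂ ≠ C r * q₁) (hn : NoCommon q₁ q₂) :
    finrank K ↥((Sd K 1).map (mulBy q₁) ⊔ (Sd K 1).map (mulBy q₂)) = 6 := by
  have h₂0 : q₂ ≠ 0 := by
    intro h
    exact hnp 0 (by simp [h])
  have h1 := Submodule.finrank_sup_add_finrank_inf_eq
    ((Sd K 1).map (mulBy q₁)) ((Sd K 1).map (mulBy q₂))
  rw [finrank_map_mulBy h₁0, finrank_map_mulBy h₂0, finrank_Sd] at h1
  have h2 : (Sd K 1).map (mulBy q₁) ⊓ (Sd K 1).map (mulBy q₂) = ⊥ := by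
    rw [eq_bot_iff]
    rintro p ⟨hp1, hp2⟩
    obtain ⟨l₁, hl₁, rfl⟩ := mem_map_mulBy.mp hp1
    obtain ⟨l₂, hl₂, hl₂'⟩ := mem_map_mulBy.mp hp2
    have hl₁' : l₁.IsHomogeneous 1 := hl₁
    have hl₂'' : l₂.IsHomogeneous 1 := hl₂
    rw [Submodule.mem_bot]
    by_cases h0 : l₁ = 0
    · simp [h0]
    by_cases h0' : l₂ = 0
    · rw [h0'] at hl₂'
      simpa using hl₂'.symm
    have L₁ : Lin l₁ := ⟨hl₁, h0⟩
    have L₂ : Lin l₂ := ⟨hl₂, h0'⟩
    exfalso
    by_cases hdv : l₁ ∣ l₂
    · obtain ⟨r, hr⟩ := dvd_same_degree L₁.hom L₁.ne L₂.hom hdv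
      have h3 : l₁ * (q₁ - C r * q₂) = 0 := by
        rw [hr] at hl₂'
        linear_combination -hl₂'
      have h4 := sub_eq_zero.mp ((mul_eq_zero.mp h3).resolve_left h0)
      have hr0 : r ≠ 0 := by
        rintro rfl
        apply h₁0
        simpa using h4
      refine hnp r⁻¹ ?_
      rw [h4, ← mul_assoc, ← C_mul, inv_mul_cancel₀ hr0]
      simp
    · have h3 : l₁ ∣ q₂ := by
        have h4 : l₁ ∣ q₂ * l₂ := ⟨q₁, by linear_combination hl₂'⟩
        rcases L₁.prime.dvd_or_dvd h4 with h5 | h5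
        · exact h5
        · exact (hdv h5).elim
      obtain ⟨b, rfl⟩ := h3
      have h4 : q₁ = b * l₂ := by
        have : l₁ * (q₁ - b * l₂) = 0 := by linear_combination -hl₂'
        exact sub_eq_zero.mp ((mul_eq_zero.mp this).resolve_left h0)
      have hb0 : b ≠ 0 := by
        rintro rfl
        exact h₂0 (by simp)
      have hbh : b.IsHomogeneous 1 := by
        refine quot_hom L₁.hom L₁.ne (β := 1) (α := 1) ?_
        rwa [mul_comm]
      exact hn b ⟨hbh, hb0⟩ ⟨l₂, h4⟩ (dvd_mul_left _ _)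
  rw [h2, finrank_bot] at h1
  norm_num [Nat.choose] at h1
  omega

end Vale.Agent.P200
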